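import Vale.Agent.Lib.P335_helper14.AvgApi

/-!
P335 (helper3): graph level of the KTV proof.  States are finsets of slots (unordered pairs);
diagonal slots are junk and are never touched.
-/

namespace P335G

open Finset P335h14

section Defs
variable {V : Type*} [Fintype V] [DecidableEq V]

/-- a state: the set of occupied slots -/
abbrev St (V : Type*) := Finset (Sym2 V)

/-- degree of `v` -/
def deg (x : St V) (v : V) : ℕ := (x.filter (fun e => v ∈ e)).card

/-- `x` and `y` agree outside the slot set `A` and have the same degrees -/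
def GRel (A : Finset (Sym2 V)) (x y : St V) : Prop :=
  x \ A = y \ A ∧ ∀ v, deg x v = deg y v

instance (A : Finset (Sym2 V)) : DecidableRel (GRel A) := fun x y => by
  unfold GRel; infer_instance

/-- the non diagonal slots touching `u` or `v` -/
def touch (u v : V) : Finset (Sym2 V) := univ.filter (fun e => (u ∈ e ∨ v ∈ e) ∧ ¬ e.IsDiag)

/-- the four slots between `{u,v}` and `{k,l}` -/
def block (u v k l : V) : Finset (Sym2 V) := {s(u, k), s(u, l), s(v, k), s(v, l)}

/-- pairwise distinct -/
def Dist4 (u v k l : V) : Prop := u ≠ v ∧ u ≠ k ∧ u ≠ l ∧ v ≠ k ∧ v ≠ l ∧ k ≠ l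

instance (u v k l : V) : Decidable (Dist4 u v k l) := by unfold Dist4; infer_instance

/-- the switch `uk, vl -> ul, vk` is available -/
def SwOK (x : St V) (u v k l : V) : Prop :=
  Dist4 u v k l ∧ s(u, k) ∈ x ∧ s(v, l) ∈ x ∧ s(u, l) ∉ x ∧ s(v, k) ∉ x

instance (x : St V) (u v k l : V) : Decidable (SwOK x u v k l) := by unfold SwOK; infer_instance

/-- the switch `uk, vl -> ul, vk` -/
def gsw (x : St V) (u v k l : V) : St V := (x \ {s(u, k), s(v, l)}) ∪ {s(u, l), s(v, k)}

/-- the rectangle `(u,v;k,l)` is switchable (its block is diagonal or antidiagonal) -/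
def Dg (u v k l : V) (x : St V) : Prop := SwOK x u v k l ∨ SwOK x u v l k

instance (u v k l : V) (x : St V) : Decidable (Dg u v k l x) := by unfold Dg; infer_instance

/-- switch the rectangle if possible -/
def tw (u v k l : V) (x : St V) : St V :=
  if SwOK x u v k l then gsw x u v k l else if SwOK x u v l k then gsw x u v l k else x

/-- same `{u,v}` collision class and same switchability of the rectangle -/
def RD (u v k l : V) (x y : St V) : Prop :=
  GRel (touch u v) x y ∧ (Dg u v k l x ↔ Dg u v k l y)

instance (u v k l : V) : DecidableRel (RD u v k l) := fun x y => by unfold RD; infer_instance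

/-- `|| (1 - E_R) f ||^2` -/
noncomputable def qq (u v k l : V) (f : St V → ℝ) : ℝ :=
  ip (f - avg (GRel (block u v k l)) f) (f - avg (GRel (block u v k l)) f)

/-- `|| 1_Dg (E[f | G-b, Dg] - E_b f) ||^2` -/
noncomputable def mm (u v k l : V) (f : St V → ℝ) : ℝ :=
  ∑ x, if Dg u v k l x then (avg (RD u v k l) f x - avg (GRel (touch u v)) f x) ^ 2 else 0

end Defs

end P335G
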