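import Vale.Agent.Lib.P335_helper3.GComm
import Vale.Agent.Lib.P335_helper21.TwoV

/-! P335 graph level, module GTwo: Dirichlet forms and the two vertex estimate -/

namespace P335G

open Finset P335h14

set_option linter.unusedSectionVars false

section GTwo
variable {V : Type*} [Fintype V] [DecidableEq V]

/-- Dirichlet form of the switches with rows `u`, `v` -/
noncomputable def gdir2 (u v : V) (f : St V → ℝ) : ℝ :=
  ∑ x, ∑ k, ∑ l, if SwOK x u v k l then (f (gsw x u v k l) - f x) ^ 2 else 0

/-- Dirichlet form of all switches (ordered 4-tuples) -/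
noncomputable def gdir (f : St V → ℝ) : ℝ := ∑ u, ∑ v, gdir2 u v f

theorem touch_eq_proto (u v : V) : touch u v = P335h21.touch u v := by
  ext e
  simp only [touch, P335h21.touch, mem_filter, mem_univ, true_and]
  tauto

theorem GRel_iff_proto (A : Finset (Sym2 V)) (x y : St V) : GRel A x y ↔ P335h21.GRel A x y :=
  Iff.rfl

theorem SwOK_iff_proto (x : St V) (u v k l : V) : SwOK x u v k l ↔ P335h21.GSwOK x u v k l := by
  unfold SwOK Dist4 P335h21.GSwOK
  constructor
  · rintro ⟨⟨h1, h2, h3, h4, h5, h6⟩, a, b, c, d⟩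
    exact ⟨h1, h2.symm, h4.symm, h3.symm, h5.symm, a, d, b, c⟩
  · rintro ⟨h1, h2, h3, h4, h5, a, d, b, c⟩
    refine ⟨⟨h1, h2.symm, h4.symm, h3.symm, h5.symm, ?_⟩, a, b, c, d⟩
    rintro rfl
    exact c a

theorem gsw_eq_proto (x : St V) (u v k l : V) : gsw x u v k l = P335h21.gsw x u v k l := by
  ext e
  simp only [gsw, P335h21.gsw, mem_union, mem_sdiff, mem_insert, mem_singleton, mem_erase]
  tauto

theorem gdir2_eq_proto (u v : V) (f : St V → ℝ) : gdir2 u v f = P335h21.gdir2 u v f := by
  unfold gdir2 P335h21.gdir2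
  refine Finset.sum_congr rfl fun x _ => Finset.sum_congr rfl fun k _ =>
    Finset.sum_congr rfl fun l _ => ?_
  simp only [SwOK_iff_proto, gsw_eq_proto]

theorem avg_GRel_eq_proto (A : Finset (Sym2 V)) (f : St V → ℝ) :
    avg (GRel A) f = avg (P335h21.GRel A) f := by
  funext x
  unfold avg
  congr 1

/-- **G_2R** -/
theorem g_two_row {u v : V} (huv : u ≠ v) (f : St V → ℝ) :
    4 * ip (f - avg (GRel (touch u v)) f) (f - avg (GRel (touch u v)) f) ≤ gdir2 u v f := by
  rw [gdir2_eq_proto, avg_GRel_eq_proto, touch_eq_proto]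
  exact P335h21.g_two_row huv f

end GTwo

end P335G
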