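import Vale.Agent.Lib.P335_helper14.AvgApi
import Vale.Agent.Lib.P335_helper25.Rect

/-! P335 graph level, module Grid: abstract commutation criterion and restriction of a relation to an invariant set -/

namespace P335G

open Finset P335h14

set_option linter.unusedSectionVars false

section Grid
variable {X : Type*} [Fintype X] [DecidableEq X]

/-- two equivalence relations whose classes form grids have commuting averages -/
theorem avg_comm_of_grid {r s : X → X → Prop} [DecidableRel r] [DecidableRel s]
    (hr : Equivalence r) (hs : Equivalence s)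
    (hex : ∀ x y z, r x y → s x z → ∃ w, s y w ∧ r z w)
    (huniq : ∀ x y, r x y → s x y → x = y) (f : X → ℝ) :
    avg r (avg s f) = avg s (avg r f) :=
  avg_comm_of_rect hr hs hex huniq f

/-- `r` inside `S`, equality outside -/
def restr (S : X → Prop) (r : X → X → Prop) (x y : X) : Prop := (S x ∧ r x y) ∨ x = y

instance (S : X → Prop) [DecidablePred S] (r : X → X → Prop) [DecidableRel r] :
    DecidableRel (restr S r) := fun x y => by unfold restr; infer_instance

theorem restr_equiv {S : X → Prop} {r : X → X → Prop} (hr : Equivalence r)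
    (hS : ∀ x y, r x y → (S x ↔ S y)) : Equivalence (restr S r) where
  refl := fun _ => Or.inr rfl
  symm := by
    rintro x y (⟨h1, h2⟩ | rfl)
    · exact Or.inl ⟨(hS x y h2).mp h1, hr.symm h2⟩
    · exact Or.inr rfl
  trans := by
    rintro x y z (⟨h1, h2⟩ | rfl) h'
    · rcases h' with ⟨h3, h4⟩ | rfl
      · exact Or.inl ⟨h1, hr.trans h2 h4⟩
      · exact Or.inl ⟨h1, h2⟩
    · exact h'

/-- the average only depends on the values on the class -/
theorem avg_congr_on {r : X → X → Prop} [DecidableRel r] {f g : X → ℝ} {x : X}
    (h : ∀ y, r x y → f y = g y) : avg r f x = avg r g x := by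
  unfold avg
  congr 1
  apply Finset.sum_congr rfl
  intro y hy
  exact h y (by simpa using hy)

theorem avg_restr {S : X → Prop} [DecidablePred S] {r : X → X → Prop} [DecidableRel r]
    (hr : Equivalence r) (f : X → ℝ) (x : X) :
    avg (restr S r) f x = if S x then avg r f x else f x := by
  by_cases hx : S x
  · rw [if_pos hx]
    unfold avg
    have : univ.filter (fun y => restr S r x y) = univ.filter (fun y => r x y) := by
      apply Finset.filter_congr
      intro y _
      unfold restr
      constructor
      · rintro (⟨_, h2⟩ | rfl)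
        · exact h2
        · exact hr.refl _
      · intro h2
        exact Or.inl ⟨hx, h2⟩
    rw [this]
  · rw [if_neg hx]
    unfold avg
    have : univ.filter (fun y => restr S r x y) = {x} := by
      ext y
      simp only [Finset.mem_filter, Finset.mem_univ, true_and, Finset.mem_singleton]
      unfold restr
      constructor
      · rintro (⟨h1, _⟩ | rfl)
        · exact absurd h1 hx
        · rfl
      · rintro rfl
        exact Or.inr rfl
    rw [this]
    simp

/-- commutation passes to restrictions -/
theorem avg_restr_comm {S : X → Prop} [DecidablePred S] {r s : X → X → Prop} [DecidableRel r]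
    [DecidableRel s] (hr : Equivalence r) (hs : Equivalence s)
    (hSr : ∀ x y, r x y → (S x ↔ S y)) (hSs : ∀ x y, s x y → (S x ↔ S y))
    (hc : ∀ f : X → ℝ, avg r (avg s f) = avg s (avg r f)) (f : X → ℝ) :
    avg (restr S r) (avg (restr S s) f) = avg (restr S s) (avg (restr S r) f) := by
  funext x
  rw [avg_restr hr (avg (restr S s) f) x, avg_restr hs (avg (restr S r) f) x]
  by_cases hx : S x
  · rw [if_pos hx, if_pos hx]
    have e1 : avg r (avg (restr S s) f) x = avg r (avg s f) x := by
      apply avg_congr_on
      intro y hy
      rw [avg_restr hs, if_pos ((hSr x y hy).mp hx)]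
    have e2 : avg s (avg (restr S r) f) x = avg s (avg r f) x := by
      apply avg_congr_on
      intro y hy
      rw [avg_restr hr, if_pos ((hSs x y hy).mp hx)]
    rw [e1, e2, hc]
  · rw [if_neg hx, if_neg hx, avg_restr hs, avg_restr hr, if_neg hx, if_neg hx]

theorem sum_avg {r : X → X → Prop} [DecidableRel r] (hr : Equivalence r) (L : X → ℝ) :
    ∑ x, avg r L x = ∑ x, L x := by
  have h1 : avg r (fun _ => (1 : ℝ)) = fun _ => (1 : ℝ) := avg_of_inv hr (fun _ _ _ => rfl)
  have h2 := ip_avg_left hr L (fun _ => (1 : ℝ))
  rw [h1] at h2
  unfold ip at h2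
  simpa using h2

/-- a global inequality follows from the inequality on every class -/
theorem sum_le_sum_of_class {r : X → X → Prop} [DecidableRel r] (hr : Equivalence r) (L R : X → ℝ)
    (h : ∀ x₀, ∑ x ∈ univ.filter (fun x => r x₀ x), L x ≤ ∑ x ∈ univ.filter (fun x => r x₀ x), R x) :
    ∑ x, L x ≤ ∑ x, R x := by
  rw [← sum_avg hr L, ← sum_avg hr R]
  apply Finset.sum_le_sum
  intro x _
  unfold avg
  exact div_le_div_of_nonneg_right (h x) (Nat.cast_nonneg _)

end Grid

end P335G
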