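import Vale.Agent.Lib.P335_helper26.BL

/-! P335 graph level, module BLabs: the abstract Bernoulli-Laplace lemma (Step 4 of PROOF_D),
restated from `P335h26.bl_abs` for a finset of active columns -/

namespace P335G

open Finset

theorem BLabs {X V : Type*} [DecidableEq X] [DecidableEq V] (C : Finset X) (Act : Finset V)
    (ξ : V → X → Bool) (τ : V → V → X → X) (κ : ℕ)
    (hτC : ∀ k ∈ Act, ∀ l ∈ Act, k ≠ l → ∀ y ∈ C, τ k l y ∈ C)
    (hτinv : ∀ k ∈ Act, ∀ l ∈ Act, k ≠ l → ∀ y ∈ C, τ k l (τ k l y) = y)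
    (hξk : ∀ k ∈ Act, ∀ l ∈ Act, k ≠ l → ∀ y ∈ C, ξ k (τ k l y) = ξ l y)
    (hξl : ∀ k ∈ Act, ∀ l ∈ Act, k ≠ l → ∀ y ∈ C, ξ l (τ k l y) = ξ k y)
    (hξz : ∀ k ∈ Act, ∀ l ∈ Act, k ≠ l → ∀ z ∈ Act, z ≠ k → z ≠ l → ∀ y ∈ C,
      ξ z (τ k l y) = ξ z y)
    (hκ : ∀ y ∈ C, (Act.filter (fun z => ξ z y = true)).card = κ)
    (h : X → ℝ) (hh : ∑ y ∈ C, h y = 0) :
    ∑ k ∈ Act, ∑ l ∈ Act, (if k ≠ l then
        (∑ y ∈ C.filter (fun y => ξ k y ≠ ξ l y), h y) ^ 2
          / ((C.filter (fun y => ξ k y ≠ ξ l y)).card : ℝ) else 0)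
      ≤ (1 / 4) * ∑ k ∈ Act, ∑ l ∈ Act,
          (if k ≠ l then ∑ y ∈ C, (h y - h (τ k l y)) ^ 2 else 0) := by
  classical
  set m : (↥Act) → X → Prop := fun x s => ξ x.1 s = true with hm
  set σ : (↥Act) → (↥Act) → X → X := fun y z s => if y = z then s else τ y.1 z.1 s with hσ
  have ne_val : ∀ {y z : ↥Act}, y ≠ z → y.1 ≠ z.1 := fun hyz hv => hyz (Subtype.ext hv)
  have hσS : ∀ y z, ∀ s ∈ C, σ y z s ∈ C := by
    intro y z s hs
    simp only [hσ]
    by_cases hyz : y = z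
    · rw [if_pos hyz]; exact hs
    · rw [if_neg hyz]; exact hτC y.1 y.2 z.1 z.2 (ne_val hyz) s hs
  have hσσ : ∀ y z, ∀ s ∈ C, σ y z (σ y z s) = s := by
    intro y z s hs
    simp only [hσ]
    by_cases hyz : y = z
    · rw [if_pos hyz, if_pos hyz]
    · rw [if_neg hyz, if_neg hyz]; exact hτinv y.1 y.2 z.1 z.2 (ne_val hyz) s hs
  have hσm : ∀ y z u, ∀ s ∈ C, (m u (σ y z s) ↔ m (Equiv.swap y z u) s) := by
    intro y z u s hs
    simp only [hσ, hm]
    by_cases hyz : y = z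
    · subst hyz
      rw [if_pos rfl, Equiv.swap_self]; rfl
    · rw [if_neg hyz]
      by_cases uy : u = y
      · subst uy
        rw [Equiv.swap_apply_left, hξk u.1 u.2 z.1 z.2 (ne_val hyz) s hs]
      by_cases uz : u = z
      · subst uz
        rw [Equiv.swap_apply_right, hξl y.1 y.2 u.1 u.2 (ne_val hyz) s hs]
      rw [Equiv.swap_apply_of_ne_of_ne uy uz,
        hξz y.1 y.2 z.1 z.2 (ne_val hyz) u.1 u.2 (ne_val uy) (ne_val uz) s hs]
  have hk : ∀ s ∈ C, (univ.filter (fun x => m x s)).card = κ := by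
    intro s hs
    rw [← hκ s hs, Finset.card_filter, Finset.card_filter]
    exact Finset.sum_coe_sort Act (fun z => if ξ z s = true then 1 else 0)
  have key := P335h26.bl_abs m C σ hσS hσσ hσm κ hk h hh
  have eL : ∑ k ∈ Act, ∑ l ∈ Act, (if k ≠ l then
        (∑ y ∈ C.filter (fun y => ξ k y ≠ ξ l y), h y) ^ 2
          / ((C.filter (fun y => ξ k y ≠ ξ l y)).card : ℝ) else 0)
      = ∑ x : ↥Act, ∑ y : ↥Act, (∑ s ∈ C, h s * P335h26.ax m x y s) ^ 2
          / (∑ s ∈ C, P335h26.ax m x y s) := by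
    rw [← Finset.sum_coe_sort Act]
    apply Finset.sum_congr rfl
    intro x _
    rw [← Finset.sum_coe_sort Act]
    apply Finset.sum_congr rfl
    intro y _
    have hax : ∀ s, P335h26.ax m x y s = if ξ x.1 s ≠ ξ y.1 s then 1 else 0 := by
      intro s
      unfold P335h26.ax
      simp only [hm]
      cases ξ x.1 s <;> cases ξ y.1 s <;> simp
    by_cases hxy : x.1 = y.1
    · rw [if_neg (not_not.mpr hxy)]
      have : ∀ s, P335h26.ax m x y s = 0 := by
        intro s; rw [hax, hxy]; simp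
      simp [this]
    · rw [if_pos hxy]
      congr 1
      · congr 1
        rw [Finset.sum_filter]
        apply Finset.sum_congr rfl
        intro s _
        rw [hax]
        by_cases hs : ξ x.1 s ≠ ξ y.1 s
        · rw [if_pos hs, if_pos hs, mul_one]
        · rw [if_neg hs, if_neg hs, mul_zero]
      · rw [Finset.card_filter]
        push_cast
        apply Finset.sum_congr rfl
        intro s _
        rw [hax]
  have eR : ∑ k ∈ Act, ∑ l ∈ Act,
          (if k ≠ l then ∑ y ∈ C, (h y - h (τ k l y)) ^ 2 else 0)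
      = ∑ x : ↥Act, ∑ y : ↥Act, ∑ s ∈ C, (h s - h (σ x y s)) ^ 2 := by
    rw [← Finset.sum_coe_sort Act]
    apply Finset.sum_congr rfl
    intro x _
    rw [← Finset.sum_coe_sort Act]
    apply Finset.sum_congr rfl
    intro y _
    simp only [hσ]
    by_cases hxy : x = y
    · subst hxy
      simp
    · rw [if_pos (ne_val hxy)]
      apply Finset.sum_congr rfl
      intro s _
      rw [if_neg hxy]
  rw [eL, eR]
  exact key

end P335G
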