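import Vale.Agent.Lib.P335_helper3.Block

/-! P335 graph level, module BLfacts: a collision class is a Bernoulli-Laplace slice over its
active columns -/

namespace P335G

open Finset P335h14

section BLfacts
variable {V : Type*} [Fintype V] [DecidableEq V]

/-- the active columns: exactly one of `uz`, `vz` is occupied -/
def Act (u v : V) (x : St V) : Finset V :=
  univ.filter (fun z => z ≠ u ∧ z ≠ v ∧ io x s(u, z) + io x s(v, z) = 1)

theorem mem_Act {u v z : V} {x : St V} :
    z ∈ Act u v x ↔ z ≠ u ∧ z ≠ v ∧ io x s(u, z) + io x s(v, z) = 1 := by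
  simp [Act]

theorem Act_inv {u v : V} {x y : St V} (h : GRel (touch u v) x y) : Act u v x = Act u v y := by
  ext z
  rw [mem_Act, mem_Act]
  constructor
  · rintro ⟨h1, h2, h3⟩
    exact ⟨h1, h2, by rw [← col_inv h h1 h2]; exact h3⟩
  · rintro ⟨h1, h2, h3⟩
    exact ⟨h1, h2, by rw [col_inv h h1 h2]; exact h3⟩

theorem Act_of_Dg {u v k l : V} {x : St V} (h : Dg u v k l x) :
    k ∈ Act u v x ∧ l ∈ Act u v x := by
  rw [mem_Act, mem_Act]
  rcases h with ⟨⟨h1, h2, h3, h4, h5, h6⟩, a, b, c, d⟩ | ⟨⟨h1, h2, h3, h4, h5, h6⟩, a, b, c, d⟩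
  · refine ⟨⟨h2.symm, h4.symm, ?_⟩, ⟨h3.symm, h5.symm, ?_⟩⟩ <;> simp [io, a, b, c, d]
  · refine ⟨⟨h3.symm, h5.symm, ?_⟩, ⟨h2.symm, h4.symm, ?_⟩⟩ <;> simp [io, a, b, c, d]

theorem Dg_iff_of_Act {u v k l : V} (huv : u ≠ v) (hkl : k ≠ l) {x : St V} (hk : k ∈ Act u v x)
    (hl : l ∈ Act u v x) : Dg u v k l x ↔ ¬ (s(u, k) ∈ x ↔ s(u, l) ∈ x) := by
  rw [mem_Act] at hk hl
  obtain ⟨k1, k2, k3⟩ := hk
  obtain ⟨l1, l2, l3⟩ := hl
  have hd : Dist4 u v k l := ⟨huv, k1.symm, l1.symm, k2.symm, l2.symm, hkl⟩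
  have hd' : Dist4 u v l k := ⟨huv, l1.symm, k1.symm, l2.symm, k2.symm, hkl.symm⟩
  unfold Dg SwOK
  unfold io at k3 l3
  by_cases a : s(u, k) ∈ x <;> by_cases b : s(v, k) ∈ x <;> by_cases c : s(u, l) ∈ x <;>
    by_cases d : s(v, l) ∈ x <;> simp [a, b, c, d, hd, hd'] at k3 l3 ⊢

theorem tw_of_not_Dist4 {u v k l : V} (h : ¬ Dist4 u v k l) (x : St V) : tw u v k l x = x := by
  have h' : ¬ Dist4 u v l k := fun hh => h hh.swapR
  unfold tw SwOK
  simp [h, h']

theorem grel_touch_tw (u v k l : V) (x : St V) : GRel (touch u v) x (tw u v k l x) := by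
  by_cases h : Dist4 u v k l
  · exact GRel.mono (block_subset_touch h) (grel_tw u v k l x)
  · rw [tw_of_not_Dist4 h]
    exact (GRel.equiv _).refl x

/-- `tw` exchanges the two columns -/
theorem mem_tw_iff {u v k l : V} (huv : u ≠ v) {x : St V} (hk : k ∈ Act u v x)
    (hl : l ∈ Act u v x) (z : V) :
    s(u, z) ∈ tw u v k l x ↔ s(u, Equiv.swap k l z) ∈ x := by
  by_cases hkl : k = l
  · subst hkl
    rw [tw_of_not_Dist4 (fun h => h.2.2.2.2.2 rfl)]
    simp
  have hDg := Dg_iff_of_Act huv hkl hk hl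
  rw [mem_Act] at hk hl
  obtain ⟨k1, k2, k3⟩ := hk
  obtain ⟨l1, l2, l3⟩ := hl
  by_cases h1 : SwOK x u v k l
  · have e : tw u v k l x = gsw x u v k l := by unfold tw; rw [if_pos h1]
    rw [e]
    obtain ⟨_, a, b, c, d⟩ := h1
    unfold gsw
    by_cases zk : z = k
    · subst zk
      rw [Equiv.swap_apply_left]
      simp [c, hkl, huv, Ne.symm k1, k2, Ne.symm l1]
    by_cases zl : z = l
    · subst zl
      rw [Equiv.swap_apply_right]
      simp [a]
    rw [Equiv.swap_apply_of_ne_of_ne zk zl]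
    simp [zk, zl, huv, Ne.symm k1, Ne.symm l1]
  by_cases h2 : SwOK x u v l k
  · have e : tw u v k l x = gsw x u v l k := by unfold tw; rw [if_neg h1, if_pos h2]
    rw [e]
    obtain ⟨_, a, b, c, d⟩ := h2
    unfold gsw
    by_cases zk : z = k
    · subst zk
      rw [Equiv.swap_apply_left]
      simp [a]
    by_cases zl : z = l
    · subst zl
      rw [Equiv.swap_apply_right]
      simp [c, Ne.symm hkl, huv, Ne.symm k1, l2, Ne.symm l1]
    rw [Equiv.swap_apply_of_ne_of_ne zk zl]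
    simp [zk, zl, huv, Ne.symm k1, Ne.symm l1]
  · have e : tw u v k l x = x := by unfold tw; rw [if_neg h1, if_neg h2]
    rw [e]
    have hn : ¬ Dg u v k l x := fun h => h.elim h1 h2
    rw [hDg, not_not] at hn
    by_cases zk : z = k
    · subst zk
      rw [Equiv.swap_apply_left]; exact hn
    by_cases zl : z = l
    · subst zl
      rw [Equiv.swap_apply_right]; exact hn.symm
    rw [Equiv.swap_apply_of_ne_of_ne zk zl]

/-- the number of active columns occupied in row `u` is constant on the class -/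
theorem card_Act_inv {u v : V} (huv : u ≠ v) {x y : St V} (h : GRel (touch u v) x y) :
    ((Act u v x).filter (fun z => s(u, z) ∈ x)).card
      = ((Act u v x).filter (fun z => s(u, z) ∈ y)).card := by
  have hrow := row_inv huv h
  have key : ∀ w : St V, GRel (touch u v) x w →
      ∑ k ∈ univ.filter (fun k => k ≠ u ∧ k ≠ v), io w s(u, k)
        = ((Act u v x).filter (fun z => s(u, z) ∈ w)).card
          + ((univ.filter (fun k => k ≠ u ∧ k ≠ v)).filter
              (fun k => io x s(u, k) + io x s(v, k) = 2)).card := by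
    intro w hw
    rw [Finset.card_filter, Finset.card_filter, Act, Finset.sum_filter, Finset.sum_filter,
      Finset.sum_filter, ← Finset.sum_add_distrib]
    apply Finset.sum_congr rfl
    intro k _
    by_cases k1 : k ≠ u ∧ k ≠ v
    · have hc := col_inv hw k1.1 k1.2
      unfold io at hc ⊢
      by_cases a : s(u, k) ∈ x <;> by_cases b : s(v, k) ∈ x <;> by_cases c : s(u, k) ∈ w <;>
        by_cases d : s(v, k) ∈ w <;> simp [a, b, c, d, k1.1, k1.2] at hc ⊢
    · have k2 : ¬ (k ≠ u ∧ k ≠ v ∧ io x s(u, k) + io x s(v, k) = 1) := fun hh => k1 ⟨hh.1, hh.2.1⟩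
      rw [if_neg k1, if_neg k2, if_neg k1, add_zero]
  have h1 := key x ((GRel.equiv _).refl x)
  have h2 := key y h
  omega

end BLfacts

end P335G
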