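import Vale.Agent.Lib.P335_helper3.Block
import Vale.Agent.Lib.P335_helper3.BLabs

/-! P335 graph level, module BLgraph: Step 4 of PROOF_D (sum over the second pair) -/

namespace P335G

open Finset P335h14

set_option linter.unusedSectionVars false

section BLgraph
variable {V : Type*} [Fintype V] [DecidableEq V]

namespace BLg

theorem io_add_eq_one_iff (y : St V) (a b : Sym2 V) : io y a + io y b = 1 ↔ (a ∈ y ↔ b ∉ y) := by
  unfold io
  by_cases ha : a ∈ y <;> by_cases hb : b ∈ y <;> simp [ha, hb]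

theorem act_of_Dg {u v k l : V} {y : St V} (h : Dg u v k l y) :
    io y s(u, k) + io y s(v, k) = 1 ∧ io y s(u, l) + io y s(v, l) = 1 := by
  rw [io_add_eq_one_iff, io_add_eq_one_iff]
  rcases h with h | h
  · obtain ⟨-, h1, h2, h3, h4⟩ := h
    simp [h1, h2, h3, h4]
  · obtain ⟨-, h1, h2, h3, h4⟩ := h
    simp [h1, h2, h3, h4]

theorem Dg_iff_of_act {u v k l : V} (hd : Dist4 u v k l) {y : St V}
    (hk : io y s(u, k) + io y s(v, k) = 1) (hl : io y s(u, l) + io y s(v, l) = 1) :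
    Dg u v k l y ↔ (s(u, k) ∈ y ↔ s(u, l) ∉ y) := by
  rw [io_add_eq_one_iff] at hk hl
  have hd' : Dist4 u v l k := hd.swapR
  unfold Dg SwOK
  by_cases h1 : s(u, k) ∈ y <;> by_cases h2 : s(u, l) ∈ y <;>
    by_cases h3 : s(v, k) ∈ y <;> by_cases h4 : s(v, l) ∈ y <;>
    simp_all

theorem mem_gsw_row {u v k l : V} (hd : Dist4 u v k l) (y : St V) (z : V) :
    s(u, z) ∈ gsw y u v k l ↔ (z = l ∨ (z ≠ k ∧ s(u, z) ∈ y)) := by
  obtain ⟨h1, h2, h3, h4, h5, h6⟩ := hd
  unfold gsw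
  simp only [mem_union, mem_sdiff, mem_insert, mem_singleton, Sym2.eq_iff, true_and]
  have e1 : ¬ (u = v) := h1
  have e2 : ¬ (u = k) := h2
  have e3 : ¬ (u = l) := h3
  simp only [e1, e2, e3, false_and, or_false]
  tauto

theorem mem_tw_z {u v k l : V} (hd : Dist4 u v k l) (y : St V) {z : V} (hzk : z ≠ k)
    (hzl : z ≠ l) : s(u, z) ∈ tw u v k l y ↔ s(u, z) ∈ y := by
  unfold tw
  split_ifs with h1 h2
  · rw [mem_gsw_row hd]; simp [hzk, hzl]
  · rw [mem_gsw_row hd.swapR]; simp [hzk, hzl]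
  · rfl

theorem mem_tw_k {u v k l : V} (hd : Dist4 u v k l) {y : St V}
    (hk : io y s(u, k) + io y s(v, k) = 1) (hl : io y s(u, l) + io y s(v, l) = 1) :
    s(u, k) ∈ tw u v k l y ↔ s(u, l) ∈ y := by
  have hkl : k ≠ l := hd.2.2.2.2.2
  have hD := Dg_iff_of_act hd hk hl
  unfold tw
  split_ifs with h1 h2
  · rw [mem_gsw_row hd]
    obtain ⟨-, a1, a2, a3, a4⟩ := h1
    simp [hkl, a3]
  · rw [mem_gsw_row hd.swapR]
    obtain ⟨-, a1, a2, a3, a4⟩ := h2
    simp [a1]
  · have : ¬ Dg u v k l y := fun h => h.elim h1 h2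
    rw [hD] at this
    tauto

theorem mem_tw_l {u v k l : V} (hd : Dist4 u v k l) {y : St V}
    (hk : io y s(u, k) + io y s(v, k) = 1) (hl : io y s(u, l) + io y s(v, l) = 1) :
    s(u, l) ∈ tw u v k l y ↔ s(u, k) ∈ y := by
  have hkl : k ≠ l := hd.2.2.2.2.2
  have hD := Dg_iff_of_act hd hk hl
  unfold tw
  split_ifs with h1 h2
  · rw [mem_gsw_row hd]
    obtain ⟨-, a1, a2, a3, a4⟩ := h1
    simp [a1]
  · rw [mem_gsw_row hd.swapR]
    obtain ⟨-, a1, a2, a3, a4⟩ := h2
    simp [hkl.symm, a3]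
  · have : ¬ Dg u v k l y := fun h => h.elim h1 h2
    rw [hD] at this
    tauto

/-- the active columns of the `{u,v}` collision class of `x₀` -/
def Act (u v : V) (x₀ : St V) : Finset V :=
  univ.filter (fun k => k ≠ u ∧ k ≠ v ∧ io x₀ s(u, k) + io x₀ s(v, k) = 1)

/-- the `{u,v}` collision class of `x₀` -/
def cl (u v : V) (x₀ : St V) : Finset (St V) := univ.filter (fun y => GRel (touch u v) x₀ y)

theorem mem_cl {u v : V} {x₀ y : St V} : y ∈ cl u v x₀ ↔ GRel (touch u v) x₀ y := by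
  simp [cl]

theorem mem_Act {u v : V} {x₀ : St V} {k : V} :
    k ∈ Act u v x₀ ↔ k ≠ u ∧ k ≠ v ∧ io x₀ s(u, k) + io x₀ s(v, k) = 1 := by
  simp [Act]

theorem dist4_of_act {u v : V} (huv : u ≠ v) {x₀ : St V} {k l : V} (hk : k ∈ Act u v x₀)
    (hl : l ∈ Act u v x₀) (hkl : k ≠ l) : Dist4 u v k l := by
  rw [mem_Act] at hk hl
  exact ⟨huv, hk.1.symm, hl.1.symm, hk.2.1.symm, hl.2.1.symm, hkl⟩

theorem act_inv {u v : V} {x₀ y : St V} (hy : y ∈ cl u v x₀) {k : V} (hk : k ∈ Act u v x₀) :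
    io y s(u, k) + io y s(v, k) = 1 := by
  rw [mem_Act] at hk
  rw [← col_inv (mem_cl.1 hy) hk.1 hk.2.1]
  exact hk.2.2

theorem card_act {u v : V} (huv : u ≠ v) {x₀ y : St V} (hy : y ∈ cl u v x₀) :
    ((Act u v x₀).filter (fun z => decide (s(u, z) ∈ y) = true)).card
      = ((Act u v x₀).filter (fun z => decide (s(u, z) ∈ x₀) = true)).card := by
  have hrow := row_inv huv (mem_cl.1 hy)
  have key : ∀ w : St V, ((Act u v x₀).filter (fun z => decide (s(u, z) ∈ w) = true)).card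
      = ∑ z ∈ (univ.filter (fun k => k ≠ u ∧ k ≠ v)).filter
          (fun k => io x₀ s(u, k) + io x₀ s(v, k) = 1), io w s(u, z) := by
    intro w
    rw [Finset.card_filter]
    have : Act u v x₀ = (univ.filter (fun k => k ≠ u ∧ k ≠ v)).filter
          (fun k => io x₀ s(u, k) + io x₀ s(v, k) = 1) := by
      ext k; simp [Act, and_assoc]
    rw [this]
    refine Finset.sum_congr rfl (fun z _ => ?_)
    unfold io
    simp
  rw [key, key]
  rw [← Finset.sum_filter_add_sum_filter_not (univ.filter (fun k => k ≠ u ∧ k ≠ v))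
      (fun k => io x₀ s(u, k) + io x₀ s(v, k) = 1) (fun k => io x₀ s(u, k)),
    ← Finset.sum_filter_add_sum_filter_not (univ.filter (fun k => k ≠ u ∧ k ≠ v))
      (fun k => io x₀ s(u, k) + io x₀ s(v, k) = 1) (fun k => io y s(u, k))] at hrow
  have hrest : ∑ k ∈ (univ.filter (fun k => k ≠ u ∧ k ≠ v)).filter
        (fun k => ¬ (io x₀ s(u, k) + io x₀ s(v, k) = 1)), io x₀ s(u, k)
      = ∑ k ∈ (univ.filter (fun k => k ≠ u ∧ k ≠ v)).filter
        (fun k => ¬ (io x₀ s(u, k) + io x₀ s(v, k) = 1)), io y s(u, k) := by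
    refine Finset.sum_congr rfl (fun k hk => ?_)
    simp only [mem_filter, mem_univ, true_and] at hk
    have hc := col_inv (mem_cl.1 hy) hk.1.1 hk.1.2
    have hn := hk.2
    revert hc hn
    unfold io
    split_ifs <;> simp
  omega

theorem filter_xi_eq {u v : V} (huv : u ≠ v) {x₀ : St V} {k l : V} (hk : k ∈ Act u v x₀)
    (hl : l ∈ Act u v x₀) (hkl : k ≠ l) :
    (cl u v x₀).filter (fun y => decide (s(u, k) ∈ y) ≠ decide (s(u, l) ∈ y))
      = (cl u v x₀).filter (fun y => Dg u v k l y) := by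
  refine Finset.filter_congr (fun y hy => ?_)
  rw [Dg_iff_of_act (dist4_of_act huv hk hl hkl) (act_inv hy hk) (act_inv hy hl)]
  by_cases h1 : s(u, k) ∈ y <;> by_cases h2 : s(u, l) ∈ y <;> simp [h1, h2]

theorem RD_class {u v k l : V} {x₀ x : St V} (hx : x ∈ cl u v x₀) (hD : Dg u v k l x) :
    univ.filter (fun y => RD u v k l x y) = (cl u v x₀).filter (fun y => Dg u v k l y) := by
  have he := GRel.equiv (touch u v)
  ext y
  rw [mem_filter, mem_filter, mem_cl]
  constructor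
  · rintro ⟨-, h1, h2⟩
    exact ⟨he.trans (mem_cl.1 hx) h1, h2.1 hD⟩
  · rintro ⟨h1, h2⟩
    exact ⟨mem_univ _, he.trans (he.symm (mem_cl.1 hx)) h1, fun _ => h2, fun _ => hD⟩

theorem lhs_term {u v : V} (f : St V → ℝ) (x₀ : St V) (k l : V) :
    ∑ x ∈ cl u v x₀, (if Dg u v k l x then
        (avg (RD u v k l) f x - avg (GRel (touch u v)) f x) ^ 2 else 0)
      = (∑ y ∈ (cl u v x₀).filter (fun y => Dg u v k l y),
          (f y - avg (GRel (touch u v)) f x₀)) ^ 2
        / (((cl u v x₀).filter (fun y => Dg u v k l y)).card : ℝ) := by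
  have he := GRel.equiv (touch u v)
  rw [← Finset.sum_filter]
  set D := (cl u v x₀).filter (fun y => Dg u v k l y) with hDdef
  set a := avg (GRel (touch u v)) f x₀ with ha
  have h1 : ∀ x ∈ D, (avg (RD u v k l) f x - avg (GRel (touch u v)) f x) ^ 2
      = ((∑ y ∈ D, f y) / (D.card : ℝ) - a) ^ 2 := by
    intro x hx
    rw [hDdef, mem_filter] at hx
    have e1 : avg (GRel (touch u v)) f x = a := (avg_congr_class he f (mem_cl.1 hx.1)).symm
    have e2 : avg (RD u v k l) f x = (∑ y ∈ D, f y) / (D.card : ℝ) := by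
      unfold avg
      rw [RD_class hx.1 hx.2]
    rw [e1, e2]
  rw [Finset.sum_congr rfl h1, Finset.sum_const, Finset.sum_sub_distrib, Finset.sum_const,
    nsmul_eq_mul, nsmul_eq_mul]
  by_cases hc : (D.card : ℝ) = 0
  · rw [hc]; simp
  · field_simp

theorem lhs_zero {u v : V} (f : St V → ℝ) (x₀ : St V) {k l : V} (hd : Dist4 u v k l)
    (hn : ¬ (k ∈ Act u v x₀ ∧ l ∈ Act u v x₀)) :
    ∑ x ∈ cl u v x₀, (if Dg u v k l x then
        (avg (RD u v k l) f x - avg (GRel (touch u v)) f x) ^ 2 else 0) = 0 := by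
  refine Finset.sum_eq_zero (fun x hx => ?_)
  rw [if_neg]
  intro hD
  apply hn
  obtain ⟨a1, a2⟩ := act_of_Dg hD
  obtain ⟨h1, h2, h3, h4, h5, h6⟩ := hd
  rw [mem_Act, mem_Act]
  refine ⟨⟨h2.symm, h4.symm, ?_⟩, ⟨h3.symm, h5.symm, ?_⟩⟩
  · rw [col_inv (mem_cl.1 hx) h2.symm h4.symm]; exact a1
  · rw [col_inv (mem_cl.1 hx) h3.symm h5.symm]; exact a2

theorem sum_sum_mem (A : Finset V) (G : V → V → ℝ) :
    ∑ k ∈ A, ∑ l ∈ A, G k l = ∑ k, ∑ l, if k ∈ A ∧ l ∈ A then G k l else 0 := by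
  have h1 : ∀ F : V → ℝ, ∑ k ∈ A, F k = ∑ k, if k ∈ A then F k else 0 := by
    intro F
    rw [Finset.sum_ite_mem]; simp
  rw [h1]
  refine Finset.sum_congr rfl (fun k _ => ?_)
  by_cases hk : k ∈ A
  · rw [if_pos hk, h1]
    refine Finset.sum_congr rfl (fun l _ => ?_)
    simp [hk]
  · rw [if_neg hk]
    simp [hk]

theorem sum3_comm (S : Finset (St V)) (G : St V → V → V → ℝ) :
    ∑ x ∈ S, ∑ k, ∑ l, G x k l = ∑ k, ∑ l, ∑ x ∈ S, G x k l := by
  rw [Finset.sum_comm]
  exact Finset.sum_congr rfl (fun k _ => Finset.sum_comm)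

theorem bl_inst {u v : V} (huv : u ≠ v) (f : St V → ℝ) (x₀ : St V) (a : ℝ)
    (hsum0 : ∑ y ∈ cl u v x₀, (f y - a) = 0) :
    ∑ k ∈ Act u v x₀, ∑ l ∈ Act u v x₀, (if k ≠ l then
        (∑ y ∈ (cl u v x₀).filter
            (fun y => decide (s(u, k) ∈ y) ≠ decide (s(u, l) ∈ y)), (f y - a)) ^ 2
          / (((cl u v x₀).filter
            (fun y => decide (s(u, k) ∈ y) ≠ decide (s(u, l) ∈ y))).card : ℝ) else 0)
      ≤ (1 / 4) * ∑ k ∈ Act u v x₀, ∑ l ∈ Act u v x₀,
          (if k ≠ l then ∑ y ∈ cl u v x₀, ((f y - a) - (f (tw u v k l y) - a)) ^ 2 else 0) := by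
  have he := GRel.equiv (touch u v)
  refine BLabs (cl u v x₀) (Act u v x₀) (fun k y => decide (s(u, k) ∈ y))
    (fun k l => tw u v k l)
    ((Act u v x₀).filter (fun z => decide (s(u, z) ∈ x₀) = true)).card
    ?_ ?_ ?_ ?_ ?_ ?_ (fun y => f y - a) hsum0
  · intro k hk l hl hkl y hy
    rw [mem_cl] at hy ⊢
    exact he.trans hy (GRel.mono (block_subset_touch (dist4_of_act huv hk hl hkl))
      (grel_tw u v k l y))
  · intro k _ l _ _ y _
    exact tw_tw u v k l y
  · intro k hk l hl hkl y hy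
    simp only [mem_tw_k (dist4_of_act huv hk hl hkl) (act_inv hy hk) (act_inv hy hl)]
  · intro k hk l hl hkl y hy
    simp only [mem_tw_l (dist4_of_act huv hk hl hkl) (act_inv hy hk) (act_inv hy hl)]
  · intro k hk l hl hkl z _ hzk hzl y _
    simp only [mem_tw_z (dist4_of_act huv hk hl hkl) y hzk hzl]
  · intro y hy
    exact card_act huv hy

theorem L2_class {u v : V} (huv : u ≠ v) (f : St V → ℝ) (x₀ : St V) :
    ∑ k, ∑ l, (if Dist4 u v k l then ∑ x ∈ cl u v x₀, (if Dg u v k l x then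
        (avg (RD u v k l) f x - avg (GRel (touch u v)) f x) ^ 2 else 0) else 0)
      ≤ ∑ k, ∑ l, (if Dist4 u v k l then
          (1 / 4) * ∑ x ∈ cl u v x₀, (f x - f (tw u v k l x)) ^ 2 else 0) := by
  have he := GRel.equiv (touch u v)
  set a := avg (GRel (touch u v)) f x₀ with ha
  have hsum0 : ∑ y ∈ cl u v x₀, (f y - a) = 0 := by
    rw [Finset.sum_sub_distrib, Finset.sum_const, nsmul_eq_mul, ha]
    unfold avg
    have hpos := cls_card_pos he x₀
    unfold cl
    field_simp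
    ring
  have hbl := bl_inst huv f x₀ a hsum0
  rw [sum_sum_mem (Act u v x₀), sum_sum_mem (Act u v x₀), Finset.mul_sum] at hbl
  refine le_trans (le_of_eq ?_) (le_trans hbl ?_)
  · refine Finset.sum_congr rfl (fun k _ => Finset.sum_congr rfl (fun l _ => ?_))
    by_cases hA : k ∈ Act u v x₀ ∧ l ∈ Act u v x₀
    · rw [if_pos hA]
      by_cases hkl : k = l
      · rw [if_neg (fun hd : Dist4 u v k l => hd.2.2.2.2.2 hkl),
          if_neg (fun hne : k ≠ l => hne hkl)]
      · rw [if_pos hkl, if_pos (dist4_of_act huv hA.1 hA.2 hkl), lhs_term,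
          filter_xi_eq huv hA.1 hA.2 hkl]
    · rw [if_neg hA]
      by_cases hd : Dist4 u v k l
      · rw [if_pos hd, lhs_zero f x₀ hd hA]
      · rw [if_neg hd]
  · refine Finset.sum_le_sum (fun k _ => ?_)
    rw [Finset.mul_sum]
    refine Finset.sum_le_sum (fun l _ => ?_)
    by_cases hA : k ∈ Act u v x₀ ∧ l ∈ Act u v x₀
    · rw [if_pos hA]
      by_cases hkl : k = l
      · rw [if_neg (fun hne : k ≠ l => hne hkl),
          if_neg (fun hd : Dist4 u v k l => hd.2.2.2.2.2 hkl)]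
        simp
      · rw [if_pos hkl, if_pos (dist4_of_act huv hA.1 hA.2 hkl)]
        apply le_of_eq
        congr 1
        refine Finset.sum_congr rfl (fun y _ => ?_)
        ring
    · rw [if_neg hA, mul_zero]
      split_ifs
      · exact mul_nonneg (by norm_num) (Finset.sum_nonneg (fun y _ => sq_nonneg _))
      · exact le_refl _

end BLg

open BLg in
theorem L2 {u v : V} (huv : u ≠ v) (f : St V → ℝ) :
    ∑ k, ∑ l, (if Dist4 u v k l then mm u v k l f else 0)
      ≤ ∑ k, ∑ l, (if Dist4 u v k l then qq u v k l f else 0) := by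
  have he := GRel.equiv (touch u v)
  have hL : ∑ k, ∑ l, (if Dist4 u v k l then mm u v k l f else 0)
      = ∑ x, ∑ k, ∑ l, (if Dist4 u v k l then (if Dg u v k l x then
        (avg (RD u v k l) f x - avg (GRel (touch u v)) f x) ^ 2 else 0) else 0) := by
    rw [sum3_comm]
    refine Finset.sum_congr rfl (fun k _ => Finset.sum_congr rfl (fun l _ => ?_))
    split_ifs with hd
    · rfl
    · simp
  have hR : ∑ k, ∑ l, (if Dist4 u v k l then qq u v k l f else 0)
      = ∑ x, ∑ k, ∑ l, (if Dist4 u v k l then (1 / 4) * (f x - f (tw u v k l x)) ^ 2 else 0) := by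
    rw [sum3_comm]
    refine Finset.sum_congr rfl (fun k _ => Finset.sum_congr rfl (fun l _ => ?_))
    split_ifs with hd
    · rw [qq_eq hd, Finset.mul_sum]
    · simp
  rw [hL, hR]
  refine sum_le_sum_of_class he _ _ (fun x₀ => ?_)
  have h := L2_class huv f x₀
  unfold cl at h
  rw [sum3_comm, sum3_comm]
  refine le_trans (le_of_eq ?_) (le_trans h (le_of_eq ?_))
  · refine Finset.sum_congr rfl (fun k _ => Finset.sum_congr rfl (fun l _ => ?_))
    split_ifs with hd
    · rfl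
    · simp
  · refine Finset.sum_congr rfl (fun k _ => Finset.sum_congr rfl (fun l _ => ?_))
    split_ifs with hd
    · rw [Finset.mul_sum]
    · simp

end BLgraph

end P335G
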