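import Vale.Agent.Lib.P335_helper3.GComm

/-! P335 graph level, module Block: the four slots between two disjoint pairs -/

namespace P335G

open Finset P335h14

set_option linter.unusedSectionVars false

section Block
variable {V : Type*} [Fintype V] [DecidableEq V]

/-- indicator of a slot -/
def io (x : St V) (e : Sym2 V) : ℕ := if e ∈ x then 1 else 0

namespace Blk

theorem io_le_one (x : St V) (e : Sym2 V) : io x e ≤ 1 := by
  unfold io; split_ifs <;> omega

theorem io_eq_iff {x y : St V} {e : Sym2 V} : io x e = io y e ↔ (e ∈ x ↔ e ∈ y) := by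
  unfold io
  by_cases h1 : e ∈ x <;> by_cases h2 : e ∈ y <;> simp [h1, h2]

theorem io_eq_one {x : St V} {e : Sym2 V} : io x e = 1 ↔ e ∈ x := by
  unfold io; by_cases h1 : e ∈ x <;> simp [h1]

theorem io_eq_zero {x : St V} {e : Sym2 V} : io x e = 0 ↔ e ∉ x := by
  unfold io; by_cases h1 : e ∈ x <;> simp [h1]

theorem deg_eq_sum (x : St V) (v : V) : deg x v = ∑ c, io x s(v, c) := by
  unfold deg io
  rw [← Finset.card_filter]
  have : x.filter (fun e => v ∈ e) = (univ.filter (fun c => s(v, c) ∈ x)).image (fun c => s(v, c)) := by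
    ext e
    simp only [mem_filter, mem_image, mem_univ, true_and]
    constructor
    · rintro ⟨he, hv⟩
      obtain ⟨c, rfl⟩ := Sym2.mem_iff_exists.1 hv
      exact ⟨c, he, rfl⟩
    · rintro ⟨c, hc, rfl⟩
      exact ⟨hc, Sym2.mem_mk_left v c⟩
  rw [this, Finset.card_image_of_injective]
  intro a b hab
  exact Sym2.congr_right.1 hab

theorem mk_mem_touch {u v a b : V} :
    s(a, b) ∈ touch u v ↔ a ≠ b ∧ (u = a ∨ u = b ∨ v = a ∨ v = b) := by
  unfold touch
  simp only [mem_filter, mem_univ, true_and, Sym2.mk_isDiag_iff, Sym2.mem_iff]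
  tauto

theorem mem_iff {A : Finset (Sym2 V)} {x y : St V} (h : x \ A = y \ A) {e : Sym2 V} (he : e ∉ A) :
    e ∈ x ↔ e ∈ y := by
  have h1 : e ∈ x \ A ↔ e ∈ y \ A := by rw [h]
  simp only [mem_sdiff, he, not_false_eq_true, and_true] at h1
  exact h1

theorem io_eq {A : Finset (Sym2 V)} {x y : St V} (h : x \ A = y \ A) {e : Sym2 V} (he : e ∉ A) :
    io x e = io y e := io_eq_iff.2 (mem_iff h he)

/-- splitting a sum over `V` at two distinct points -/
theorem sum_split2 {u v : V} (huv : u ≠ v) (g : V → ℕ) :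
    ∑ c, g c = g u + g v + ∑ c ∈ univ.filter (fun c => c ≠ u ∧ c ≠ v), g c := by
  have h1 : (univ : Finset V) = insert u (insert v (univ.filter (fun c => c ≠ u ∧ c ≠ v))) := by
    ext c
    simp only [mem_univ, mem_insert, mem_filter, true_and, true_iff]
    tauto
  conv_lhs => rw [h1]
  rw [Finset.sum_insert, Finset.sum_insert]
  · ring
  · simp
  · simp [huv]

theorem sum_split1 (u : V) (g : V → ℕ) :
    ∑ c, g c = g u + ∑ c ∈ univ.filter (fun c => c ≠ u), g c := by
  have h1 : (univ : Finset V) = insert u (univ.filter (fun c => c ≠ u)) := by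
    ext c
    simp only [mem_univ, mem_insert, mem_filter, true_and, true_iff]
    tauto
  conv_lhs => rw [h1]
  rw [Finset.sum_insert]
  simp

theorem slots_ne {u v k l : V} (h : Dist4 u v k l) :
    s(u, k) ≠ s(u, l) ∧ s(u, k) ≠ s(v, k) ∧ s(u, k) ≠ s(v, l) ∧ s(u, l) ≠ s(v, k) ∧
      s(u, l) ≠ s(v, l) ∧ s(v, k) ≠ s(v, l) := by
  obtain ⟨h1, h2, h3, h4, h5, h6⟩ := h
  simp only [ne_eq, Sym2.eq_iff, not_or, not_and]
  refine ⟨⟨fun _ => h6, fun h => absurd h h3⟩, ⟨fun h => absurd h h1, fun h => absurd h h2⟩,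
    ⟨fun h => absurd h h1, fun h => absurd h h3⟩, ⟨fun h => absurd h h1, fun h => absurd h h2⟩,
    ⟨fun h => absurd h h1, fun h => absurd h h3⟩, ⟨fun _ => h6, fun h => absurd h h5⟩⟩

theorem mem_block {u v k l : V} {e : Sym2 V} :
    e ∈ block u v k l ↔ e = s(u, k) ∨ e = s(u, l) ∨ e = s(v, k) ∨ e = s(v, l) := by
  unfold block; simp only [mem_insert, mem_singleton]

theorem swOK_swap (u v k l : V) (x : St V) : SwOK x k l u v ↔ SwOK x u v k l := by
  unfold SwOK Dist4
  rw [Sym2.eq_swap (a := k) (b := u), Sym2.eq_swap (a := l) (b := v), Sym2.eq_swap (a := k) (b := v),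
    Sym2.eq_swap (a := l) (b := u)]
  constructor
  · rintro ⟨⟨h1, h2, h3, h4, h5, h6⟩, a, b, c, d⟩
    exact ⟨⟨h6, h2.symm, h4.symm, h3.symm, h5.symm, h1⟩, a, b, d, c⟩
  · rintro ⟨⟨h1, h2, h3, h4, h5, h6⟩, a, b, c, d⟩
    exact ⟨⟨h6, h2.symm, h4.symm, h3.symm, h5.symm, h1⟩, a, b, d, c⟩

theorem block_swapR (u v k l : V) : block u v l k = block u v k l := by
  ext e; rw [mem_block, mem_block]; tauto

theorem mem_gsw {x : St V} {u v k l : V} {e : Sym2 V} :
    e ∈ gsw x u v k l ↔ (e ∈ x ∧ e ≠ s(u, k) ∧ e ≠ s(v, l)) ∨ e = s(u, l) ∨ e = s(v, k) := by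
  unfold gsw
  simp only [mem_union, mem_sdiff, mem_insert, mem_singleton, not_or]

end Blk

open Blk

theorem Dist4.swap {u v k l : V} (h : Dist4 u v k l) : Dist4 k l u v := by
  obtain ⟨h1, h2, h3, h4, h5, h6⟩ := h
  exact ⟨h6, h2.symm, h4.symm, h3.symm, h5.symm, h1⟩
theorem Dist4.swapR {u v k l : V} (h : Dist4 u v k l) : Dist4 u v l k := by
  obtain ⟨h1, h2, h3, h4, h5, h6⟩ := h
  exact ⟨h1, h3, h2, h5, h4, h6.symm⟩
theorem Dist4.swapL {u v k l : V} (h : Dist4 u v k l) : Dist4 v u k l := by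
  obtain ⟨h1, h2, h3, h4, h5, h6⟩ := h
  exact ⟨h1.symm, h4, h5, h2, h3, h6⟩

theorem block_swap (u v k l : V) : block k l u v = block u v k l := by
  ext e
  rw [mem_block, mem_block, Sym2.eq_swap (a := k) (b := u), Sym2.eq_swap (a := l) (b := v),
    Sym2.eq_swap (a := k) (b := v), Sym2.eq_swap (a := l) (b := u)]
  tauto

theorem Dg_swap (u v k l : V) (x : St V) : Dg k l u v x ↔ Dg u v k l x := by
  unfold Dg
  rw [swOK_swap u v k l x]
  have : SwOK x k l v u ↔ SwOK x u v l k := by
    unfold SwOK Dist4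
    rw [Sym2.eq_swap (a := k) (b := u), Sym2.eq_swap (a := l) (b := v),
      Sym2.eq_swap (a := k) (b := v), Sym2.eq_swap (a := l) (b := u)]
    constructor
    · rintro ⟨⟨h1, h2, h3, h4, h5, h6⟩, a, b, c, d⟩
      exact ⟨⟨h6.symm, h5.symm, h3.symm, h4.symm, h2.symm, h1.symm⟩, b, a, c, d⟩
    · rintro ⟨⟨h1, h2, h3, h4, h5, h6⟩, a, b, c, d⟩
      exact ⟨⟨h6.symm, h5.symm, h3.symm, h4.symm, h2.symm, h1.symm⟩, b, a, c, d⟩
  rw [this]

theorem touch_inter_touch {u v k l : V} (h : Dist4 u v k l) :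
    touch u v ∩ touch k l = block u v k l := by
  obtain ⟨h1, h2, h3, h4, h5, h6⟩ := h
  ext e
  induction e using Sym2.ind with
  | _ a b =>
    rw [mem_inter, mk_mem_touch, mk_mem_touch, mem_block]
    simp only [Sym2.eq_iff]
    constructor
    · rintro ⟨⟨hab, p⟩, ⟨_, q⟩⟩
      rcases p with rfl | rfl | rfl | rfl <;> rcases q with rfl | rfl | rfl | rfl <;> simp_all
    · rintro ((⟨rfl, rfl⟩ | ⟨rfl, rfl⟩) | (⟨rfl, rfl⟩ | ⟨rfl, rfl⟩) | (⟨rfl, rfl⟩ | ⟨rfl, rfl⟩) |
        (⟨rfl, rfl⟩ | ⟨rfl, rfl⟩)) <;> simp_all [Ne.symm]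

theorem block_subset_touch {u v k l : V} (h : Dist4 u v k l) : block u v k l ⊆ touch u v := by
  rw [← touch_inter_touch h]; exact Finset.inter_subset_left

/-- column sums are preserved by the `{u,v}` collision -/
theorem col_inv {u v : V} {x y : St V} (h : GRel (touch u v) x y) {k : V} (hku : k ≠ u)
    (hkv : k ≠ v) : io x s(u, k) + io x s(v, k) = io y s(u, k) + io y s(v, k) := by
  have h1 := h.2 k
  rw [deg_eq_sum, deg_eq_sum] at h1
  rw [Sym2.eq_swap (a := u) (b := k), Sym2.eq_swap (a := v) (b := k)]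
  rcases eq_or_ne u v with rfl | huv
  · rw [sum_split1 u, sum_split1 u] at h1
    have h2 : ∑ a ∈ univ.filter (fun a => a ≠ u), io x s(k, a)
        = ∑ a ∈ univ.filter (fun a => a ≠ u), io y s(k, a) := by
      refine Finset.sum_congr rfl (fun a ha => ?_)
      simp only [mem_filter, mem_univ, true_and] at ha
      apply io_eq h.1
      rw [mk_mem_touch]
      rintro ⟨_, h3 | h3 | h3 | h3⟩
      · exact hku h3.symm
      · exact ha h3.symm
      · exact hku h3.symm
      · exact ha h3.symm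
    omega
  · rw [sum_split2 huv, sum_split2 huv] at h1
    have h2 : ∑ a ∈ univ.filter (fun a => a ≠ u ∧ a ≠ v), io x s(k, a)
        = ∑ a ∈ univ.filter (fun a => a ≠ u ∧ a ≠ v), io y s(k, a) := by
      refine Finset.sum_congr rfl (fun a ha => ?_)
      simp only [mem_filter, mem_univ, true_and] at ha
      apply io_eq h.1
      rw [mk_mem_touch]
      rintro ⟨_, h3 | h3 | h3 | h3⟩
      · exact hku h3.symm
      · exact ha.1 h3.symm
      · exact hkv h3.symm
      · exact ha.2 h3.symm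
    omega

namespace Blk

theorem pair_aux {u v : V} (huv : u ≠ v) {x y : St V} (h : GRel (touch u v) x y) :
    io x s(u, v) = io y s(u, v) ∧
    ∑ c ∈ univ.filter (fun c => c ≠ u ∧ c ≠ v), io x s(u, c)
      = ∑ c ∈ univ.filter (fun c => c ≠ u ∧ c ≠ v), io y s(u, c) ∧
    ∑ c ∈ univ.filter (fun c => c ≠ u ∧ c ≠ v), io x s(v, c)
      = ∑ c ∈ univ.filter (fun c => c ≠ u ∧ c ≠ v), io y s(v, c) := by
  have hu := h.2 u
  have hv := h.2 v
  rw [deg_eq_sum, deg_eq_sum, sum_split2 huv, sum_split2 huv] at hu hv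
  have huu : io x s(u, u) = io y s(u, u) := io_eq h.1 (by rw [mk_mem_touch]; simp)
  have hvv : io x s(v, v) = io y s(v, v) := io_eq h.1 (by rw [mk_mem_touch]; simp)
  have hsum : ∑ c ∈ univ.filter (fun c => c ≠ u ∧ c ≠ v), (io x s(u, c) + io x s(v, c))
      = ∑ c ∈ univ.filter (fun c => c ≠ u ∧ c ≠ v), (io y s(u, c) + io y s(v, c)) := by
    refine Finset.sum_congr rfl (fun c hc => ?_)
    simp only [mem_filter, mem_univ, true_and] at hc
    exact col_inv h hc.1 hc.2
  rw [Finset.sum_add_distrib, Finset.sum_add_distrib] at hsum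
  rw [Sym2.eq_swap (a := v) (b := u)] at hv
  refine ⟨?_, ?_, ?_⟩ <;> omega

end Blk

/-- the slot `uv` is preserved by the `{u,v}` collision -/
theorem uv_inv {u v : V} (huv : u ≠ v) {x y : St V} (h : GRel (touch u v) x y) :
    io x s(u, v) = io y s(u, v) := (pair_aux huv h).1

/-- row sums over the columns outside `{u,v}` are preserved -/
theorem row_inv {u v : V} (huv : u ≠ v) {x y : St V} (h : GRel (touch u v) x y) :
    ∑ k ∈ univ.filter (fun k => k ≠ u ∧ k ≠ v), io x s(u, k)
      = ∑ k ∈ univ.filter (fun k => k ≠ u ∧ k ≠ v), io y s(u, k) := (pair_aux huv h).2.1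

/-- characterisation of the collision class by rows and columns -/
theorem grel_touch_iff {u v : V} (huv : u ≠ v) (x y : St V) :
    GRel (touch u v) x y ↔ x \ touch u v = y \ touch u v ∧ io x s(u, v) = io y s(u, v) ∧
      (∀ k, k ≠ u → k ≠ v → io x s(u, k) + io x s(v, k) = io y s(u, k) + io y s(v, k)) ∧
      ∑ k ∈ univ.filter (fun k => k ≠ u ∧ k ≠ v), io x s(u, k)
        = ∑ k ∈ univ.filter (fun k => k ≠ u ∧ k ≠ v), io y s(u, k) := by
  constructor
  · intro h
    exact ⟨h.1, uv_inv huv h, fun k hku hkv => col_inv h hku hkv, row_inv huv h⟩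
  · rintro ⟨h1, h2, h3, h4⟩
    refine ⟨h1, fun w => ?_⟩
    rw [deg_eq_sum, deg_eq_sum, sum_split2 huv, sum_split2 huv]
    have huu : io x s(u, u) = io y s(u, u) := io_eq h1 (by rw [mk_mem_touch]; simp)
    have hvv : io x s(v, v) = io y s(v, v) := io_eq h1 (by rw [mk_mem_touch]; simp)
    have hsum : ∑ c ∈ univ.filter (fun c => c ≠ u ∧ c ≠ v), (io x s(u, c) + io x s(v, c))
        = ∑ c ∈ univ.filter (fun c => c ≠ u ∧ c ≠ v), (io y s(u, c) + io y s(v, c)) := by
      refine Finset.sum_congr rfl (fun c hc => ?_)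
      simp only [mem_filter, mem_univ, true_and] at hc
      exact h3 c hc.1 hc.2
    rw [Finset.sum_add_distrib, Finset.sum_add_distrib] at hsum
    rcases eq_or_ne w u with rfl | hwu
    · omega
    rcases eq_or_ne w v with rfl | hwv
    · rw [Sym2.eq_swap (a := w) (b := u)]; omega
    · have h5 : ∑ a ∈ univ.filter (fun a => a ≠ u ∧ a ≠ v), io x s(w, a)
          = ∑ a ∈ univ.filter (fun a => a ≠ u ∧ a ≠ v), io y s(w, a) := by
        refine Finset.sum_congr rfl (fun a ha => ?_)
        simp only [mem_filter, mem_univ, true_and] at ha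
        apply io_eq h1
        rw [mk_mem_touch]
        rintro ⟨_, h3 | h3 | h3 | h3⟩
        · exact hwu h3.symm
        · exact ha.1 h3.symm
        · exact hwv h3.symm
        · exact ha.2 h3.symm
      have h6 := h3 w hwu hwv
      rw [Sym2.eq_swap (a := w) (b := u), Sym2.eq_swap (a := w) (b := v)]
      omega

namespace Blk

theorem card_inter_block {u v k l : V} (h : Dist4 u v k l) (x : St V) (w : V) :
    ((x ∩ block u v k l).filter (fun e => w ∈ e)).card
      = (if w = u ∨ w = k then io x s(u, k) else 0) + (if w = u ∨ w = l then io x s(u, l) else 0)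
        + (if w = v ∨ w = k then io x s(v, k) else 0)
        + (if w = v ∨ w = l then io x s(v, l) else 0) := by
  obtain ⟨n1, n2, n3, n4, n5, n6⟩ := slots_ne h
  have e1 : (x ∩ block u v k l).filter (fun e => w ∈ e)
      = (block u v k l).filter (fun e => e ∈ x ∧ w ∈ e) := by
    ext e; simp only [mem_filter, mem_inter]; tauto
  rw [e1, Finset.card_filter]
  unfold block
  rw [Finset.sum_insert (by simp [n1, n2, n3]), Finset.sum_insert (by simp [n4, n5]),
    Finset.sum_insert (by simp [n6]), Finset.sum_singleton]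
  simp only [Sym2.mem_iff, io]
  by_cases a1 : s(u, k) ∈ x <;> by_cases a2 : s(u, l) ∈ x <;> by_cases a3 : s(v, k) ∈ x <;>
    by_cases a4 : s(v, l) ∈ x <;> simp [a1, a2, a3, a4, add_assoc]

end Blk

/-- characterisation of `GRel (block ..)` -/
theorem grel_block_iff {u v k l : V} (h : Dist4 u v k l) (x y : St V) :
    GRel (block u v k l) x y ↔ x \ block u v k l = y \ block u v k l ∧
      io x s(u, k) + io x s(u, l) = io y s(u, k) + io y s(u, l) ∧
      io x s(v, k) + io x s(v, l) = io y s(v, k) + io y s(v, l) ∧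
      io x s(u, k) + io x s(v, k) = io y s(u, k) + io y s(v, k) ∧
      io x s(u, l) + io x s(v, l) = io y s(u, l) + io y s(v, l) := by
  obtain ⟨h1, h2, h3, h4, h5, h6⟩ := id h
  constructor
  · intro hr
    have hu := hr.card_inter u
    have hv := hr.card_inter v
    have hk := hr.card_inter k
    have hl := hr.card_inter l
    rw [card_inter_block h, card_inter_block h] at hu hv hk hl
    simp only [true_or, or_true, if_true, h1, h2, h3, h4, h5, h6, h1.symm, h2.symm, h3.symm,
      h4.symm, h5.symm, h6.symm, or_self, if_false] at hu hv hk hl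
    exact ⟨hr.1, by omega, by omega, by omega, by omega⟩
  · rintro ⟨g0, g1, g2, g3, g4⟩
    refine GRel.of_card_inter g0 fun w => ?_
    rw [card_inter_block h, card_inter_block h]
    rcases eq_or_ne w u with rfl | hu
    · simp only [true_or, if_true, h1, h2, h3, or_self, if_false]; omega
    rcases eq_or_ne w v with rfl | hv
    · simp only [true_or, if_true, hu, h4, h5, or_self, if_false]; omega
    rcases eq_or_ne w k with rfl | hk
    · simp only [or_true, if_true, hu, hv, h6, or_self, if_false]; omega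
    rcases eq_or_ne w l with rfl | hl
    · simp only [or_true, if_true, hu, hv, hk, or_self, if_false]; omega
    · simp only [hu, hv, hk, hl, or_self, if_false]

namespace Blk

theorem io_gsw {u v k l : V} {x : St V} (h : SwOK x u v k l) :
    io (gsw x u v k l) s(u, k) = 0 ∧ io (gsw x u v k l) s(u, l) = 1 ∧
      io (gsw x u v k l) s(v, k) = 1 ∧ io (gsw x u v k l) s(v, l) = 0 := by
  obtain ⟨n1, n2, n3, n4, n5, n6⟩ := slots_ne h.1
  refine ⟨io_eq_zero.2 ?_, io_eq_one.2 ?_, io_eq_one.2 ?_, io_eq_zero.2 ?_⟩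
  · rw [mem_gsw]; simp [n1, n2]
  · rw [mem_gsw]; simp
  · rw [mem_gsw]; simp
  · rw [mem_gsw]; simp [n5.symm, n6.symm]

theorem gsw_sdiff (x : St V) (u v k l : V) :
    gsw x u v k l \ block u v k l = x \ block u v k l := by
  ext e; simp only [mem_sdiff, mem_gsw, mem_block]; tauto

theorem eq_of_block {u v k l : V} {x y : St V} (h0 : x \ block u v k l = y \ block u v k l)
    (a : io x s(u, k) = io y s(u, k)) (b : io x s(u, l) = io y s(u, l))
    (c : io x s(v, k) = io y s(v, k)) (d : io x s(v, l) = io y s(v, l)) : x = y := by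
  ext e
  by_cases he : e ∈ block u v k l
  · rw [mem_block] at he
    rcases he with rfl | rfl | rfl | rfl
    · exact io_eq_iff.1 a
    · exact io_eq_iff.1 b
    · exact io_eq_iff.1 c
    · exact io_eq_iff.1 d
  · exact mem_iff h0 he

theorem tw_of_ok {u v k l : V} {x : St V} (h : SwOK x u v k l) :
    tw u v k l x = gsw x u v k l := by unfold tw; rw [if_pos h]

theorem not_ok_of_ok {u v k l : V} {x : St V} (h : SwOK x u v k l) : ¬ SwOK x u v l k :=
  fun h' => h'.2.2.2.1 h.2.1

theorem tw_of_ok' {u v k l : V} {x : St V} (h : SwOK x u v l k) :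
    tw u v k l x = gsw x u v l k := by
  unfold tw; rw [if_neg (not_ok_of_ok h), if_pos h]

theorem tw_of_not {u v k l : V} {x : St V} (h : ¬ Dg u v k l x) : tw u v k l x = x := by
  unfold Dg at h
  rw [not_or] at h
  unfold tw; rw [if_neg h.1, if_neg h.2]

end Blk

theorem grel_gsw {u v k l : V} {x : St V} (h : SwOK x u v k l) :
    GRel (block u v k l) x (gsw x u v k l) := by
  obtain ⟨i1, i2, i3, i4⟩ := io_gsw h
  have a1 := io_eq_one.2 h.2.1
  have a2 := io_eq_one.2 h.2.2.1
  have a3 := io_eq_zero.2 h.2.2.2.1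
  have a4 := io_eq_zero.2 h.2.2.2.2
  exact (grel_block_iff h.1 _ _).2 ⟨(gsw_sdiff x u v k l).symm, by omega, by omega, by omega,
    by omega⟩

theorem swOK_gsw {u v k l : V} {x : St V} (h : SwOK x u v k l) :
    SwOK (gsw x u v k l) u v l k ∧ gsw (gsw x u v k l) u v l k = x := by
  obtain ⟨i1, i2, i3, i4⟩ := io_gsw h
  refine ⟨⟨h.1.swapR, io_eq_one.1 i2, io_eq_one.1 i3, io_eq_zero.1 i1, io_eq_zero.1 i4⟩, ?_⟩
  ext e
  rw [mem_gsw, mem_gsw]
  constructor
  · rintro (⟨(⟨a, _, _⟩ | b | b), c, d⟩ | rfl | rfl)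
    · exact a
    · exact absurd b c
    · exact absurd b d
    · exact h.2.1
    · exact h.2.2.1
  · intro he
    by_cases a : e = s(u, k)
    · right; left; exact a
    by_cases b : e = s(v, l)
    · right; right; exact b
    left
    refine ⟨Or.inl ⟨he, a, b⟩, ?_, ?_⟩
    · rintro rfl; exact h.2.2.2.1 he
    · rintro rfl; exact h.2.2.2.2 he

theorem tw_tw (u v k l : V) (x : St V) : tw u v k l (tw u v k l x) = x := by
  by_cases h1 : SwOK x u v k l
  · rw [tw_of_ok h1, tw_of_ok' (swOK_gsw h1).1, (swOK_gsw h1).2]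
  by_cases h2 : SwOK x u v l k
  · rw [tw_of_ok' h2, tw_of_ok (swOK_gsw h2).1, (swOK_gsw h2).2]
  have hD : ¬ Dg u v k l x := by unfold Dg; rw [not_or]; exact ⟨h1, h2⟩
  rw [tw_of_not hD, tw_of_not hD]

theorem Dg_tw (u v k l : V) (x : St V) : Dg u v k l (tw u v k l x) ↔ Dg u v k l x := by
  by_cases h1 : SwOK x u v k l
  · rw [tw_of_ok h1]
    exact ⟨fun _ => Or.inl h1, fun _ => Or.inr (swOK_gsw h1).1⟩
  by_cases h2 : SwOK x u v l k
  · rw [tw_of_ok' h2]
    exact ⟨fun _ => Or.inr h2, fun _ => Or.inl (swOK_gsw h2).1⟩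
  have hD : ¬ Dg u v k l x := by unfold Dg; rw [not_or]; exact ⟨h1, h2⟩
  rw [tw_of_not hD]

theorem grel_tw (u v k l : V) (x : St V) : GRel (block u v k l) x (tw u v k l x) := by
  by_cases h1 : SwOK x u v k l
  · rw [tw_of_ok h1]; exact grel_gsw h1
  by_cases h2 : SwOK x u v l k
  · rw [tw_of_ok' h2]
    have := grel_gsw h2
    rwa [block_swapR] at this
  have hD : ¬ Dg u v k l x := by unfold Dg; rw [not_or]; exact ⟨h1, h2⟩
  rw [tw_of_not hD]; exact (GRel.equiv _).refl x

theorem tw_ne {u v k l : V} {x : St V} (h : Dg u v k l x) : tw u v k l x ≠ x := by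
  rcases h with h1 | h1
  · rw [tw_of_ok h1]
    intro he
    have : s(u, l) ∈ gsw x u v k l := by rw [mem_gsw]; simp
    rw [he] at this
    exact h1.2.2.2.1 this
  · rw [tw_of_ok' h1]
    intro he
    have : s(u, k) ∈ gsw x u v l k := by rw [mem_gsw]; simp
    rw [he] at this
    exact h1.2.2.2.1 this

/-- the class of the rectangle -/
theorem grel_block_cases {u v k l : V} (h : Dist4 u v k l) {x y : St V}
    (hr : GRel (block u v k l) x y) : y = x ∨ (Dg u v k l x ∧ y = tw u v k l x) := by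
  obtain ⟨g0, g1, g2, g3, g4⟩ := (grel_block_iff h x y).1 hr
  have b1 := io_le_one x s(u, k)
  have b2 := io_le_one x s(u, l)
  have b3 := io_le_one x s(v, k)
  have b4 := io_le_one x s(v, l)
  have b5 := io_le_one y s(u, k)
  have b6 := io_le_one y s(u, l)
  have b7 := io_le_one y s(v, k)
  have b8 := io_le_one y s(v, l)
  have key : (io x s(u, k) = io y s(u, k) ∧ io x s(u, l) = io y s(u, l) ∧
      io x s(v, k) = io y s(v, k) ∧ io x s(v, l) = io y s(v, l)) ∨
      (io x s(u, k) = 1 ∧ io x s(v, l) = 1 ∧ io x s(u, l) = 0 ∧ io x s(v, k) = 0 ∧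
        io y s(u, k) = 0 ∧ io y s(v, l) = 0 ∧ io y s(u, l) = 1 ∧ io y s(v, k) = 1) ∨
      (io x s(u, k) = 0 ∧ io x s(v, l) = 0 ∧ io x s(u, l) = 1 ∧ io x s(v, k) = 1 ∧
        io y s(u, k) = 1 ∧ io y s(v, l) = 1 ∧ io y s(u, l) = 0 ∧ io y s(v, k) = 0) := by omega
  rcases key with ⟨a, b, c, d⟩ | ⟨a1, a2, a3, a4, c1, c2, c3, c4⟩ | ⟨a1, a2, a3, a4, c1, c2, c3, c4⟩
  · left; exact (eq_of_block g0 a b c d).symm
  · right
    have hok : SwOK x u v k l :=
      ⟨h, io_eq_one.1 a1, io_eq_one.1 a2, io_eq_zero.1 a3, io_eq_zero.1 a4⟩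
    refine ⟨Or.inl hok, ?_⟩
    rw [tw_of_ok hok]
    obtain ⟨i1, i2, i3, i4⟩ := io_gsw hok
    exact eq_of_block (g0.symm.trans (gsw_sdiff x u v k l).symm) (by omega) (by omega) (by omega)
      (by omega)
  · right
    have hok : SwOK x u v l k :=
      ⟨h.swapR, io_eq_one.1 a3, io_eq_one.1 a4, io_eq_zero.1 a1, io_eq_zero.1 a2⟩
    refine ⟨Or.inr hok, ?_⟩
    rw [tw_of_ok' hok]
    obtain ⟨i1, i2, i3, i4⟩ := io_gsw hok
    have hs := gsw_sdiff x u v l k
    rw [block_swapR] at hs
    exact eq_of_block (g0.symm.trans hs.symm) (by omega) (by omega) (by omega) (by omega)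

theorem avg_block {u v k l : V} (h : Dist4 u v k l) (f : St V → ℝ) (x : St V) :
    avg (GRel (block u v k l)) f x = (f x + f (tw u v k l x)) / 2 := by
  unfold avg
  by_cases hD : Dg u v k l x
  · have : univ.filter (fun y => GRel (block u v k l) x y) = {x, tw u v k l x} := by
      ext y
      simp only [mem_filter, mem_univ, true_and, mem_insert, mem_singleton]
      constructor
      · intro hr
        rcases grel_block_cases h hr with rfl | ⟨_, rfl⟩
        · left; rfl
        · right; rfl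
      · rintro (rfl | rfl)
        · exact (GRel.equiv _).refl _
        · exact grel_tw u v k l x
    rw [this, Finset.sum_pair (tw_ne hD).symm, Finset.card_pair (tw_ne hD).symm]
    norm_num
  · have : univ.filter (fun y => GRel (block u v k l) x y) = {x} := by
      ext y
      simp only [mem_filter, mem_univ, true_and, mem_singleton]
      constructor
      · intro hr
        rcases grel_block_cases h hr with rfl | ⟨h', _⟩
        · rfl
        · exact absurd h' hD
      · rintro rfl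
        exact (GRel.equiv _).refl _
    rw [this, tw_of_not hD]
    simp

theorem qq_eq {u v k l : V} (h : Dist4 u v k l) (f : St V → ℝ) :
    qq u v k l f = (1 / 4) * ∑ x, (f x - f (tw u v k l x)) ^ 2 := by
  unfold qq ip
  rw [Finset.mul_sum]
  refine Finset.sum_congr rfl fun x _ => ?_
  simp only [Pi.sub_apply]
  rw [avg_block h]
  ring

end Block

end P335G
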