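import Vale.Agent.Lib.P335_helper3.S2
import Vale.Agent.Lib.P335_helper2.OffS2

/-! P335 graph level, module CommOff: outside the sector `S2` the two collisions commute -/

namespace P335G

open Finset P335h14

section CommOff
variable {V : Type*} [Fintype V] [DecidableEq V]

/-- outside the sector `|block| = 2` the two collisions commute -/
theorem comm_off_S2 {u v k l : V} (h : Dist4 u v k l) (f : St V → ℝ) :
    avg (restr (fun x => ¬ S2 u v k l x) (GRel (touch u v)))
        (avg (restr (fun x => ¬ S2 u v k l x) (GRel (touch k l))) f)
      = avg (restr (fun x => ¬ S2 u v k l x) (GRel (touch k l)))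
        (avg (restr (fun x => ¬ S2 u v k l x) (GRel (touch u v))) f) :=
  P335h2.comm_off_S2' h _ (fun _ => Iff.rfl) f

end CommOff

end P335G
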