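import Vale.Agent.Lib.P335_helper3.Sector
import Vale.Agent.Lib.P335_helper3.BLgraph

/-! P335 graph level, module Dsum: the disjoint pairs contribute a nonnegative term -/

namespace P335G

open Finset P335h14

section Dsum
variable {V : Type*} [Fintype V] [DecidableEq V]

omit [DecidableEq V] in
theorem sum4_swap (F : V → V → V → V → ℝ) :
    ∑ i, ∑ j, ∑ k, ∑ l, F i j k l = ∑ k, ∑ l, ∑ i, ∑ j, F i j k l := by
  calc ∑ i, ∑ j, ∑ k, ∑ l, F i j k l = ∑ i, ∑ k, ∑ j, ∑ l, F i j k l :=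
        Finset.sum_congr rfl fun i _ => Finset.sum_comm
    _ = ∑ k, ∑ i, ∑ j, ∑ l, F i j k l := Finset.sum_comm
    _ = ∑ k, ∑ i, ∑ l, ∑ j, F i j k l :=
        Finset.sum_congr rfl fun k _ => Finset.sum_congr rfl fun i _ => Finset.sum_comm
    _ = ∑ k, ∑ l, ∑ i, ∑ j, F i j k l := Finset.sum_congr rfl fun k _ => Finset.sum_comm

theorem Dsum (f : St V → ℝ) :
    0 ≤ ∑ i, ∑ j, ∑ k, ∑ l, (if Dist4 i j k l then
      ip (f - avg (GRel (touch i j)) f) (f - avg (GRel (touch k l)) f) else 0) := by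
  have h1 : ∑ i, ∑ j, ∑ k, ∑ l, (if Dist4 i j k l then
        qq i j k l f - (1 / 2) * (mm i j k l f + mm k l i j f) else 0)
      ≤ ∑ i, ∑ j, ∑ k, ∑ l, (if Dist4 i j k l then
        ip (f - avg (GRel (touch i j)) f) (f - avg (GRel (touch k l)) f) else 0) := by
    refine Finset.sum_le_sum fun i _ => Finset.sum_le_sum fun j _ => Finset.sum_le_sum fun k _ =>
      Finset.sum_le_sum fun l _ => ?_
    split_ifs with h
    · exact L1 h f
    · exact le_rfl
  have h2 : ∑ i, ∑ j, ∑ k, ∑ l, (if Dist4 i j k l then mm k l i j f else 0)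
      = ∑ i, ∑ j, ∑ k, ∑ l, (if Dist4 i j k l then mm i j k l f else 0) := by
    rw [sum4_swap]
    refine Finset.sum_congr rfl fun k _ => Finset.sum_congr rfl fun l _ =>
      Finset.sum_congr rfl fun i _ => Finset.sum_congr rfl fun j _ => ?_
    exact if_congr ⟨fun h => h.swap, fun h => h.swap⟩ rfl rfl
  have h3 : ∑ i, ∑ j, ∑ k, ∑ l, (if Dist4 i j k l then
        qq i j k l f - (1 / 2) * (mm i j k l f + mm k l i j f) else 0)
      = ∑ i, ∑ j, ∑ k, ∑ l, (if Dist4 i j k l then qq i j k l f else 0)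
        - (1 / 2) * (∑ i, ∑ j, ∑ k, ∑ l, (if Dist4 i j k l then mm i j k l f else 0)
          + ∑ i, ∑ j, ∑ k, ∑ l, (if Dist4 i j k l then mm k l i j f else 0)) := by
    simp only [Finset.mul_sum, ← Finset.sum_add_distrib, ← Finset.sum_sub_distrib]
    refine Finset.sum_congr rfl fun i _ => Finset.sum_congr rfl fun j _ =>
      Finset.sum_congr rfl fun k _ => Finset.sum_congr rfl fun l _ => ?_
    split_ifs <;> ring
  have h4 : ∑ i, ∑ j, ∑ k, ∑ l, (if Dist4 i j k l then mm i j k l f else 0)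
      ≤ ∑ i, ∑ j, ∑ k, ∑ l, (if Dist4 i j k l then qq i j k l f else 0) := by
    refine Finset.sum_le_sum fun i _ => Finset.sum_le_sum fun j _ => ?_
    by_cases hij : i = j
    · have hD : ∀ k l, ¬ Dist4 i j k l := fun k l h => h.1 hij
      simp only [hD, if_false]
      exact le_rfl
    · exact L2 hij f
  rw [h3, h2] at h1
  linarith

/-- the form required by `caputo_comb_sum` -/
theorem Dsum' (f : St V → ℝ) :
    0 ≤ ∑ i, ∑ j, ∑ k, ∑ l, (if i ≠ j ∧ k ≠ l ∧ i ≠ k ∧ i ≠ l ∧ j ≠ k ∧ j ≠ l then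
      ip (f - avg (GRel (touch i j)) f) (f - avg (GRel (touch k l)) f) else 0) := by
  have h := Dsum f
  have e : ∑ i, ∑ j, ∑ k, ∑ l, (if i ≠ j ∧ k ≠ l ∧ i ≠ k ∧ i ≠ l ∧ j ≠ k ∧ j ≠ l then
      ip (f - avg (GRel (touch i j)) f) (f - avg (GRel (touch k l)) f) else 0)
      = ∑ i, ∑ j, ∑ k, ∑ l, (if Dist4 i j k l then
      ip (f - avg (GRel (touch i j)) f) (f - avg (GRel (touch k l)) f) else 0) := by
    refine Finset.sum_congr rfl fun i _ => Finset.sum_congr rfl fun j _ =>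
      Finset.sum_congr rfl fun k _ => Finset.sum_congr rfl fun l _ => ?_
    refine if_congr ?_ rfl rfl
    unfold Dist4
    tauto
  rw [e]
  exact h

end Dsum

end P335G
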