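import Vale.Agent.Lib.P335_helper3.GBasic
import Vale.Agent.Lib.P335_helper3.Grid

/-! P335 graph level, module GComm: basic facts on `GRel`; resamplings of DISJOINT slot sets commute -/

namespace P335G

open Finset P335h14

set_option linter.unusedSectionVars false

section GComm
variable {V : Type*} [Fintype V] [DecidableEq V]

theorem GRel.equiv (A : Finset (Sym2 V)) : Equivalence (GRel A) where
  refl := fun _ => ⟨rfl, fun _ => rfl⟩
  symm := fun h => ⟨h.1.symm, fun v => (h.2 v).symm⟩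
  trans := fun h h' => ⟨h.1.trans h'.1, fun v => (h.2 v).trans (h'.2 v)⟩

theorem GRel.mem_iff {A : Finset (Sym2 V)} {x y : St V} (hr : GRel A x y) {e : Sym2 V}
    (he : e ∉ A) : e ∈ x ↔ e ∈ y := by
  have := Finset.ext_iff.mp hr.1 e
  simpa [he] using this

theorem sdiff_eq_of_mem_iff {A : Finset (Sym2 V)} {x y : St V}
    (h : ∀ e, e ∉ A → (e ∈ x ↔ e ∈ y)) : x \ A = y \ A := by
  ext e
  simp only [Finset.mem_sdiff]
  constructor
  · rintro ⟨h1, h2⟩; exact ⟨(h e h2).mp h1, h2⟩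
  · rintro ⟨h1, h2⟩; exact ⟨(h e h2).mpr h1, h2⟩

theorem GRel.mono {A B : Finset (Sym2 V)} (h : A ⊆ B) {x y : St V} (hr : GRel A x y) :
    GRel B x y :=
  ⟨sdiff_eq_of_mem_iff (fun _ he => hr.mem_iff (fun hA => he (h hA))), hr.2⟩

theorem deg_union {s t : St V} (h : Disjoint s t) (v : V) : deg (s ∪ t) v = deg s v + deg t v := by
  unfold deg
  rw [Finset.filter_union, Finset.card_union_of_disjoint]
  exact Finset.disjoint_filter_filter h

theorem deg_split (A : Finset (Sym2 V)) (x : St V) (v : V) :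
    deg x v = deg (x ∩ A) v + deg (x \ A) v := by
  rw [← deg_union (Finset.disjoint_sdiff_inter x A).symm, Finset.union_comm,
    Finset.sdiff_union_inter]

/-- inside `A` the degrees agree as well -/
theorem GRel.card_inter {A : Finset (Sym2 V)} {x y : St V} (hr : GRel A x y) (v : V) :
    ((x ∩ A).filter (fun e => v ∈ e)).card = ((y ∩ A).filter (fun e => v ∈ e)).card := by
  have h1 := deg_split A x v
  have h2 := deg_split A y v
  have h3 := hr.2 v
  rw [hr.1] at h1
  change deg (x ∩ A) v = deg (y ∩ A) v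
  omega

theorem GRel.of_card_inter {A : Finset (Sym2 V)} {x y : St V} (h1 : x \ A = y \ A)
    (h2 : ∀ v, ((x ∩ A).filter (fun e => v ∈ e)).card = ((y ∩ A).filter (fun e => v ∈ e)).card) :
    GRel A x y := by
  refine ⟨h1, fun v => ?_⟩
  have e1 := deg_split A x v
  have e2 := deg_split A y v
  have e3 : deg (x ∩ A) v = deg (y ∩ A) v := h2 v
  rw [h1] at e1
  omega

theorem deg_split4 (A A' : Finset (Sym2 V)) (x : St V) (v : V) :
    deg x v = deg (x \ (A ∪ A')) v + deg (x ∩ (A \ A')) v + deg (x ∩ (A' \ A)) v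
      + deg (x ∩ (A ∩ A')) v := by
  have h1 := deg_split A x v
  have h2 := deg_split A' (x ∩ A) v
  have h3 := deg_split A' (x \ A) v
  have e1 : x ∩ A ∩ A' = x ∩ (A ∩ A') := by
    ext e; simp only [Finset.mem_inter]; tauto
  have e2 : (x ∩ A) \ A' = x ∩ (A \ A') := by
    ext e; simp only [Finset.mem_inter, Finset.mem_sdiff]; tauto
  have e3 : (x \ A) ∩ A' = x ∩ (A' \ A) := by
    ext e; simp only [Finset.mem_inter, Finset.mem_sdiff]; tauto
  have e4 : (x \ A) \ A' = x \ (A ∪ A') := by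
    ext e; simp only [Finset.mem_union, Finset.mem_sdiff]; tauto
  rw [e1, e2] at h2
  rw [e3, e4] at h3
  omega

/-- grid completion.  `blk` is the new content of the overlap `A ∩ A'`. -/
theorem comb_rel {A A' blk : Finset (Sym2 V)} {x y z : St V} (hy : GRel A x y) (hz : GRel A' x z)
    (hb : blk ⊆ A ∩ A')
    (hdeg : ∀ v, (blk.filter (fun e => v ∈ e)).card + ((x ∩ (A ∩ A')).filter (fun e => v ∈ e)).card
      = ((y ∩ (A ∩ A')).filter (fun e => v ∈ e)).card
        + ((z ∩ (A ∩ A')).filter (fun e => v ∈ e)).card) :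
    GRel A' y ((x \ (A ∪ A')) ∪ (y ∩ (A \ A')) ∪ (z ∩ (A' \ A)) ∪ blk) ∧
    GRel A z ((x \ (A ∪ A')) ∪ (y ∩ (A \ A')) ∪ (z ∩ (A' \ A)) ∪ blk) := by
  set w : St V := (x \ (A ∪ A')) ∪ (y ∩ (A \ A')) ∪ (z ∩ (A' \ A)) ∪ blk with hw
  have hbA : ∀ e, e ∈ blk → e ∈ A ∧ e ∈ A' := fun e he => Finset.mem_inter.mp (hb he)
  have hxy : ∀ e, e ∉ A → (e ∈ x ↔ e ∈ y) := fun e he => hy.mem_iff he
  have hxz : ∀ e, e ∉ A' → (e ∈ x ↔ e ∈ z) := fun e he => hz.mem_iff he
  have hmem : ∀ e, e ∈ w ↔ ((e ∈ x ∧ e ∉ A ∧ e ∉ A') ∨ (e ∈ y ∧ e ∈ A ∧ e ∉ A')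
      ∨ (e ∈ z ∧ e ∈ A' ∧ e ∉ A) ∨ e ∈ blk) := by
    intro e
    simp only [hw, Finset.mem_union, Finset.mem_inter, Finset.mem_sdiff]
    tauto
  have w0 : w \ (A ∪ A') = x \ (A ∪ A') := by
    ext e
    have := hbA e
    simp only [Finset.mem_sdiff, Finset.mem_union, hmem]
    tauto
  have w1 : w ∩ (A \ A') = y ∩ (A \ A') := by
    ext e
    have := hbA e
    simp only [Finset.mem_sdiff, Finset.mem_inter, hmem]
    tauto
  have w2 : w ∩ (A' \ A) = z ∩ (A' \ A) := by
    ext e
    have := hbA e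
    simp only [Finset.mem_sdiff, Finset.mem_inter, hmem]
    tauto
  have w3 : w ∩ (A ∩ A') = blk := by
    ext e
    have := hbA e
    simp only [Finset.mem_inter, hmem]
    tauto
  have y0 : y \ (A ∪ A') = x \ (A ∪ A') := by
    ext e
    have := hxy e
    simp only [Finset.mem_sdiff, Finset.mem_union]
    tauto
  have y2 : y ∩ (A' \ A) = x ∩ (A' \ A) := by
    ext e
    have := hxy e
    simp only [Finset.mem_sdiff, Finset.mem_inter]
    tauto
  have z0 : z \ (A ∪ A') = x \ (A ∪ A') := by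
    ext e
    have := hxz e
    simp only [Finset.mem_sdiff, Finset.mem_union]
    tauto
  have z1 : z ∩ (A \ A') = x ∩ (A \ A') := by
    ext e
    have := hxz e
    simp only [Finset.mem_sdiff, Finset.mem_inter]
    tauto
  have hdegs : ∀ v, deg y v = deg w v ∧ deg z v = deg w v := by
    intro v
    have dx := deg_split4 A A' x v
    have dy := deg_split4 A A' y v
    have dz := deg_split4 A A' z v
    have dw := deg_split4 A A' w v
    rw [w0, w1, w2, w3] at dw
    rw [y0, y2] at dy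
    rw [z0, z1] at dz
    have h1 := hy.2 v
    have h2 := hz.2 v
    have h3 : deg blk v + deg (x ∩ (A ∩ A')) v = deg (y ∩ (A ∩ A')) v + deg (z ∩ (A ∩ A')) v :=
      hdeg v
    constructor <;> omega
  constructor
  · refine ⟨sdiff_eq_of_mem_iff (fun e he => ?_), fun v => (hdegs v).1⟩
    have h1 := hbA e
    have h2 := hxy e
    rw [hmem]
    tauto
  · refine ⟨sdiff_eq_of_mem_iff (fun e he => ?_), fun v => (hdegs v).2⟩
    have h1 := hbA e
    have h2 := hxz e
    rw [hmem]
    tauto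

theorem GRel.eq_of_disjoint {A A' : Finset (Sym2 V)} (h : Disjoint A A') {x y : St V}
    (h1 : GRel A x y) (h2 : GRel A' x y) : x = y := by
  ext e
  by_cases he : e ∈ A
  · exact h2.mem_iff (Finset.disjoint_left.mp h he)
  · exact h1.mem_iff he

theorem avg_comm_of_disjoint {A A' : Finset (Sym2 V)} (h : Disjoint A A') (f : St V → ℝ) :
    avg (GRel A) (avg (GRel A') f) = avg (GRel A') (avg (GRel A) f) := by
  refine avg_comm_of_grid (GRel.equiv A) (GRel.equiv A') ?_
    (fun x y h1 h2 => GRel.eq_of_disjoint h h1 h2) f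
  intro x y z hy hz
  have hAA : A ∩ A' = ∅ := Finset.disjoint_iff_inter_eq_empty.mp h
  have := comb_rel (blk := ∅) hy hz (Finset.empty_subset _) (by intro v; simp [hAA])
  exact ⟨_, this.1, this.2⟩

end GComm

end P335G
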