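import Vale.Agent.Lib.P335_helper3.GComm
import Vale.Agent.Lib.P335_helper25.GT

/-! P335 graph level, module GTri: the three pairs inside a triple of vertices (the T part) -/

namespace P335G

open Finset P335h14

section GTri
variable {V : Type*} [Fintype V] [DecidableEq V]

theorem touch_comm (u v : V) : touch u v = touch v u := by
  unfold touch
  apply Finset.filter_congr
  intro e _
  rw [or_comm]

/-- a collision of a vertex with itself does nothing -/
theorem grel_touch_self {u : V} {x y : St V} (h : GRel (touch u u) x y) : x = y := by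
  have hfro : ∀ p q, s(p, q) ∉ touch u u → P335h21.sl x p q = P335h21.sl y p q := by
    intro p q hpq
    apply P335h21.sl_eq_iff.2
    have h1 : s(p, q) ∈ x \ touch u u ↔ s(p, q) ∈ y \ touch u u := by rw [h.1]
    simpa only [mem_sdiff, hpq, not_false_eq_true, and_true] using h1
  have haux : ∀ q, q ≠ u → P335h21.sl x q u = P335h21.sl y q u := by
    intro q hq
    have h1 := h.2 q
    rw [P335h25.deg_eq_sum, P335h25.deg_eq_sum, ← Finset.add_sum_erase univ _ (mem_univ u),
      ← Finset.add_sum_erase univ (fun c => P335h21.sl y q c) (mem_univ u)] at h1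
    have h2 : ∑ c ∈ univ.erase u, P335h21.sl x q c = ∑ c ∈ univ.erase u, P335h21.sl y q c := by
      refine Finset.sum_congr rfl (fun c hc => hfro q c ?_)
      rw [P335h25.mk_mem_touch]
      have hc' : c ≠ u := (Finset.mem_erase.1 hc).1
      rintro ⟨_, h3 | h3 | h3 | h3⟩
      · exact hq h3.symm
      · exact hc' h3.symm
      · exact hq h3.symm
      · exact hc' h3.symm
    omega
  ext e
  induction e using Sym2.ind with
  | _ p q =>
    apply P335h21.sl_eq_iff.1
    by_cases hpq : s(p, q) ∈ touch u u
    · rw [P335h25.mk_mem_touch] at hpq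
      obtain ⟨hne, h3⟩ := hpq
      have h4 : u = p ∨ u = q := by tauto
      rcases h4 with rfl | rfl
      · rw [P335h21.sl_comm x, P335h21.sl_comm y]
        exact haux q (fun h => hne h.symm)
      · exact haux p hne
    · exact hfro p q hpq

/-- **G_T**: the form required by `caputo_comb_sum` -/
theorem g_tri {i j k : V} (hij : i ≠ j) (hik : i ≠ k) (hjk : j ≠ k) (f : St V → ℝ) :
    0 ≤ ip (f - avg (GRel (touch i j)) f) (f - avg (GRel (touch i k)) f)
      + ip (f - avg (GRel (touch j i)) f) (f - avg (GRel (touch j k)) f)
      + ip (f - avg (GRel (touch k i)) f) (f - avg (GRel (touch k j)) f) := by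
  rw [touch_comm j i, touch_comm k i, touch_comm k j]
  exact P335h25.g_tri hij hik hjk f

end GTri

end P335G
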