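import Vale.Agent.Lib.P335_helper3.Dsum
import Vale.Agent.Lib.P335_helper3.GTri
import Vale.Agent.Lib.P335_helper3.GTwo
import Vale.Agent.Lib.P335_helper16.GConn
import Vale.Agent.Lib.P335_helper14.Caputo
import Vale.Agent.Lib.P335_helper14.Spectral

/-! P335 graph level, module GMain: the Poincare inequality of the switch chain on every degree
class of simple graphs -/

namespace P335G

open Finset P335h14

section GMain
variable {V : Type*} [Fintype V] [DecidableEq V]

theorem avg_touch_self (i : V) (f : St V → ℝ) : avg (GRel (touch i i)) f = f := by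
  apply avg_of_inv (GRel.equiv _)
  intro x y h
  rw [grel_touch_self h]

theorem g_ip_f_avg {X : Type*} [Fintype X] [DecidableEq X] {r : X → X → Prop} [DecidableRel r]
    (hr : Equivalence r) (f : X → ℝ) : ip f (avg r f) = ip (avg r f) (avg r f) := by
  rw [ip_comm, ip_avg_self hr]

/-- the operator `∑ i j, (1 - E_{ij})` -/
noncomputable def GAop : (St V → ℝ) →ₗ[ℝ] (St V → ℝ) :=
  ∑ i : V, ∑ j : V, (LinearMap.id - avgL (GRel (touch i j)))

theorem GAop_apply (f : St V → ℝ) :
    GAop f = ∑ i : V, ∑ j : V, (f - avg (GRel (touch i j)) f) := by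
  unfold GAop
  simp only [LinearMap.sum_apply, LinearMap.sub_apply, LinearMap.id_apply, avgL_apply]

theorem g_ip_D_self (A : Finset (Sym2 V)) (f : St V → ℝ) :
    ip (f - avg (GRel A) f) f = ip (f - avg (GRel A) f) (f - avg (GRel A) f) := by
  have a1 := g_ip_f_avg (GRel.equiv A) f
  have b1 := ip_avg_self (GRel.equiv A) f
  simp only [ip_sub_left, ip_sub_right]
  linarith

theorem ip_GAop_self (f : St V → ℝ) :
    ip (GAop f) f
      = ∑ i : V, ∑ j : V, ip (f - avg (GRel (touch i j)) f) (f - avg (GRel (touch i j)) f) := by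
  rw [GAop_apply, ip_sum_left]
  apply Finset.sum_congr rfl
  intro i _
  rw [ip_sum_left]
  apply Finset.sum_congr rfl
  intro j _
  exact g_ip_D_self _ f

theorem GAop_symm (f g : St V → ℝ) : ip (GAop f) g = ip f (GAop g) := by
  rw [GAop_apply, GAop_apply, ip_sum_left, ip_sum_right]
  apply Finset.sum_congr rfl
  intro i _
  rw [ip_sum_left, ip_sum_right]
  apply Finset.sum_congr rfl
  intro j _
  rw [ip_sub_left, ip_sub_right, ip_avg_left (GRel.equiv _)]

theorem caputo_GAop (f : St V → ℝ) : 2 * ip (GAop f) f ≤ ip (GAop f) (GAop f) := by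
  have h := caputo_comb_sum (fun i j : V => f - avg (GRel (touch i j)) f)
    (fun i j => by
      show f - avg (GRel (touch i j)) f = f - avg (GRel (touch j i)) f
      rw [touch_comm])
    (fun i => by
      show f - avg (GRel (touch i i)) f = 0
      rw [avg_touch_self, sub_self])
    (Dsum' f)
    (fun i j k hij hik hjk => g_tri hij hik hjk f)
  rw [ip_GAop_self, GAop_apply]
  exact h

theorem GAop_eigen (μ : ℝ) (e : St V → ℝ) (he : e ≠ 0) (h : GAop e = μ • e) :
    μ = 0 ∨ 2 ≤ μ := by
  have h1 := caputo_GAop e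
  have h2 : 0 ≤ ip (GAop e) e := by
    rw [ip_GAop_self]
    exact Finset.sum_nonneg (fun i _ => Finset.sum_nonneg (fun j _ => ip_self_nonneg _))
  rw [h] at h1 h2
  simp only [ip_smul_left, ip_smul_right] at h1 h2
  have hpos : 0 < ip e e := by
    rcases (ip_self_nonneg e).lt_or_eq with h3 | h3
    · exact h3
    · exact absurd (ip_self_eq_zero h3.symm) he
  have hμ0 : 0 ≤ μ := by
    by_contra hneg
    have hneg' : μ < 0 := not_le.mp hneg
    nlinarith
  by_cases hz : μ = 0
  · left; exact hz
  · right
    have hμpos : 0 < μ := lt_of_le_of_ne hμ0 (Ne.symm hz)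
    have h4 : 2 * (μ * ip e e) ≤ μ * (μ * ip e e) := h1
    have h5 : 0 < μ * ip e e := mul_pos hμpos hpos
    by_contra hlt
    have hlt' : μ < 2 := not_le.mp hlt
    nlinarith

theorem inv_of_GAop_zero (h : St V → ℝ) (hA : GAop h = 0) :
    avg (GRel (P335h16.allSlots V)) h = h := by
  have h1 : ∑ i : V, ∑ j : V,
      ip (h - avg (GRel (touch i j)) h) (h - avg (GRel (touch i j)) h) = 0 := by
    rw [← ip_GAop_self, hA, ip_zero_left]
  have h2 : ∀ i j : V, avg (GRel (touch i j)) h = h := by
    intro i j
    have h3 := (Finset.sum_eq_zero_iff_of_nonneg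
      (fun i _ => Finset.sum_nonneg (fun j _ => ip_self_nonneg _))).mp h1 i (Finset.mem_univ i)
    have h4 := (Finset.sum_eq_zero_iff_of_nonneg (fun j _ => ip_self_nonneg _)).mp h3 j
      (Finset.mem_univ j)
    have h5 := ip_self_eq_zero h4
    exact (sub_eq_zero.mp h5).symm
  apply avg_of_inv (GRel.equiv _)
  intro x y hxy
  exact P335h16.inv_of_touch_inv
    (fun u v _ a b hab => inv_of_avg_eq (GRel.equiv _) (h2 u v) _ _ hab) hxy

theorem gdir2_nonneg (u v : V) (f : St V → ℝ) : 0 ≤ gdir2 u v f := by
  unfold gdir2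
  apply Finset.sum_nonneg; intro x _
  apply Finset.sum_nonneg; intro k _
  apply Finset.sum_nonneg; intro l _
  split_ifs
  · exact sq_nonneg _
  · exact le_refl _

theorem touch_subset_allSlots (u v : V) : touch u v ⊆ P335h16.allSlots V := by
  intro e he
  simp only [touch, mem_filter, mem_univ, true_and] at he
  simp only [P335h16.allSlots, mem_filter, mem_univ, true_and]
  exact he.2

/-- **G_GMain**.  `GRel (allSlots V)` = same degrees and same (junk) diagonal slots. -/
theorem g_poincare (f : St V → ℝ) :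
    8 * ip (f - avg (GRel (P335h16.allSlots V)) f) (f - avg (GRel (P335h16.allSlots V)) f)
      ≤ gdir f := by
  set g := f - avg (GRel (P335h16.allSlots V)) f with hg
  have hgap := gap_of_eigen GAop GAop_symm 2 GAop_eigen g (by
    intro h hA
    have h1 := inv_of_GAop_zero h hA
    rw [hg, ip_sub_left, ip_avg_left (GRel.equiv _), h1, sub_self])
  rw [ip_GAop_self] at hgap
  have h2 : ∀ i j : V, g - avg (GRel (touch i j)) g = f - avg (GRel (touch i j)) f := by
    intro i j
    have h3 := (avg_avg_of_le (GRel.equiv (touch i j)) (GRel.equiv (P335h16.allSlots V))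
      (fun x y hxy => GRel.mono (touch_subset_allSlots i j) hxy) f).2
    rw [hg, avg_sub, h3]
    abel
  have h4 : ∀ i j : V,
      4 * ip (g - avg (GRel (touch i j)) g) (g - avg (GRel (touch i j)) g) ≤ gdir2 i j f := by
    intro i j
    rw [h2]
    by_cases hij : i = j
    · subst hij
      rw [avg_touch_self, sub_self, ip_zero_left, mul_zero]
      exact gdir2_nonneg _ _ _
    · exact g_two_row hij f
  have h5 : 4 * ∑ i : V, ∑ j : V,
      ip (g - avg (GRel (touch i j)) g) (g - avg (GRel (touch i j)) g) ≤ gdir f := by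
    unfold gdir
    rw [Finset.mul_sum]
    apply Finset.sum_le_sum
    intro i _
    rw [Finset.mul_sum]
    apply Finset.sum_le_sum
    intro j _
    exact h4 i j
  linarith

end GMain

end P335G
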