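import Vale.Agent.Lib.P335_helper14.AvgApi
import Vale.Agent.Lib.P335_helper25.OpAlg

/-! P335 graph level, module L1abs: pure projection algebra (Steps 1-3 of PROOF_D) -/

namespace P335G

open Finset P335h14

section L1abs
variable {X : Type*} [Fintype X] [DecidableEq X]

theorem L1abs (E0 E1 E2 P P' : (X → ℝ) →ₗ[ℝ] (X → ℝ))
    (s0 : ∀ f g, ip (E0 f) g = ip f (E0 g)) (s1 : ∀ f g, ip (E1 f) g = ip f (E1 g))
    (s2 : ∀ f g, ip (E2 f) g = ip f (E2 g)) (sP : ∀ f g, ip (P f) g = ip f (P g))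
    (sP' : ∀ f g, ip (P' f) g = ip f (P' g))
    (i0 : ∀ f, E0 (E0 f) = E0 f) (i1 : ∀ f, E1 (E1 f) = E1 f) (i2 : ∀ f, E2 (E2 f) = E2 f)
    (iP : ∀ f, P (P f) = P f) (iP' : ∀ f, P' (P' f) = P' f)
    (c12 : ∀ f, E1 (E2 f) = E2 (E1 f)) (c1P' : ∀ f, E1 (P' f) = P' (E1 f))
    (c2P : ∀ f, E2 (P f) = P (E2 f))
    (nP0 : ∀ f, P (E0 f) = P f) (n0P : ∀ f, E0 (P f) = P f)
    (nP1 : ∀ f, P (E1 f) = P f) (n1P : ∀ f, E1 (P f) = P f)
    (nP'0 : ∀ f, P' (E0 f) = P' f) (n0P' : ∀ f, E0 (P' f) = P' f)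
    (nP'2 : ∀ f, P' (E2 f) = P' f) (n2P' : ∀ f, E2 (P' f) = P' f)
    (χ : X → Prop) [DecidablePred χ]
    (h3 : ∀ g, E0 g = g → ∀ x, ¬ χ x → (E1 g x - P g x) * (E2 g x - P' g x) = 0)
    (f : X → ℝ) :
    ip (f - E0 f) (f - E0 f)
      - (1 / 2) * ((∑ x, if χ x then (E1 (E0 f) x - P f x) ^ 2 else 0)
        + ∑ x, if χ x then (E2 (E0 f) x - P' f x) ^ 2 else 0)
      ≤ ip (f - P f) (f - P' f) := by
  have e {A B C : Module.End ℝ (X → ℝ)} (h : ∀ f, A (B f) = C f) : A * B = C :=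
    LinearMap.ext h
  have symm_sub {A B : Module.End ℝ (X → ℝ)} (sA : ∀ f g, ip (A f) g = ip f (A g))
      (sB : ∀ f g, ip (B f) g = ip f (B g)) :
      ∀ f g, ip ((A - B) f) g = ip f ((A - B) g) := by
    intro f g
    simp only [LinearMap.sub_apply, ip_sub_left, ip_sub_right, sA, sB]
  have sone : ∀ f g : X → ℝ, ip ((1 : Module.End ℝ (X → ℝ)) f) g
      = ip f ((1 : Module.End ℝ (X → ℝ)) g) := fun f g => rfl
  have I1 : E1 * E1 = E1 := e i1
  have I2 : E2 * E2 = E2 := e i2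
  have IP : P * P = P := e iP
  have IP' : P' * P' = P' := e iP'
  have C12 : E1 * E2 = E2 * E1 := e c12
  have C1P' : E1 * P' = P' * E1 := e c1P'
  have C2P : E2 * P = P * E2 := e c2P
  have NP1 : P * E1 = P := e nP1
  have N1P : E1 * P = P := e n1P
  have NP'2 : P' * E2 = P' := e nP'2
  have N2P' : E2 * P' = P' := e n2P'
  set g : X → ℝ := E0 f with hg
  have hE0g : E0 g = g := i0 f
  have hPg : P g = P f := nP0 f
  have hP'g : P' g = P' f := nP'0 f
  -- the four nonnegativity statements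
  have p1 : 0 ≤ ip (((1 : Module.End ℝ (X → ℝ)) - E1) g) (((1 : Module.End ℝ (X → ℝ)) - E2) g) := by
    apply ip_nonneg_of_comm_proj _ _ (symm_sub sone s1) (symm_sub sone s2)
    · simp only [mul_sub, sub_mul, mul_one, one_mul, I1]; abel
    · simp only [mul_sub, sub_mul, mul_one, one_mul, I2]; abel
    · simp only [mul_sub, sub_mul, mul_one, one_mul, C12]; abel
  have p2 : 0 ≤ ip (((1 : Module.End ℝ (X → ℝ)) - E1) g) ((E2 - P') g) := by
    apply ip_nonneg_of_comm_proj _ _ (symm_sub sone s1) (symm_sub s2 sP')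
    · simp only [mul_sub, sub_mul, mul_one, one_mul, I1]; abel
    · simp only [mul_sub, sub_mul, I2, IP', NP'2, N2P']; abel
    · simp only [mul_sub, sub_mul, mul_one, one_mul, C12, C1P']; try abel
  have p3 : 0 ≤ ip ((E1 - P) g) (((1 : Module.End ℝ (X → ℝ)) - E2) g) := by
    apply ip_nonneg_of_comm_proj _ _ (symm_sub s1 sP) (symm_sub sone s2)
    · simp only [mul_sub, sub_mul, I1, IP, NP1, N1P]; abel
    · simp only [mul_sub, sub_mul, mul_one, one_mul, I2]; abel
    · simp only [mul_sub, sub_mul, mul_one, one_mul, C12, C2P]; try abel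
  have p4 : -((1 / 2) * ((∑ x, if χ x then (E1 g x - P f x) ^ 2 else 0)
        + ∑ x, if χ x then (E2 g x - P' f x) ^ 2 else 0)) ≤ ip ((E1 - P) g) ((E2 - P') g) := by
    unfold ip
    rw [← Finset.sum_add_distrib, Finset.mul_sum, ← Finset.sum_neg_distrib]
    apply Finset.sum_le_sum
    intro x _
    simp only [LinearMap.sub_apply, Pi.sub_apply, hPg, hP'g]
    by_cases hx : χ x
    · simp only [hx, if_true]
      nlinarith [sq_nonneg ((E1 g x - P f x) + (E2 g x - P' f x))]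
    · have := h3 g hE0g x hx
      rw [hPg, hP'g] at this
      simp only [hx, if_false, this]
      norm_num
  -- decomposition
  have d1 : f - P f = (f - g) + ((((1 : Module.End ℝ (X → ℝ)) - E1) g) + ((E1 - P) g)) := by
    simp only [LinearMap.sub_apply, Module.End.one_apply, hPg]; abel
  have d2 : f - P' f = (f - g) + ((((1 : Module.End ℝ (X → ℝ)) - E2) g) + ((E2 - P') g)) := by
    simp only [LinearMap.sub_apply, Module.End.one_apply, hP'g]; abel
  -- orthogonality of f - g to the range of E0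
  have z (w : X → ℝ) (hw : E0 w = w) : ip (f - g) w = 0 := by
    rw [ip_sub_left, hg, s0, hw, sub_self]
  have w1 : E0 ((((1 : Module.End ℝ (X → ℝ)) - E1) g) + ((E1 - P) g))
      = (((1 : Module.End ℝ (X → ℝ)) - E1) g) + ((E1 - P) g) := by
    have : (((1 : Module.End ℝ (X → ℝ)) - E1) g) + ((E1 - P) g) = g - P g := by
      simp only [LinearMap.sub_apply, Module.End.one_apply]; abel
    rw [this, map_sub, hE0g, n0P]
  have w2 : E0 ((((1 : Module.End ℝ (X → ℝ)) - E2) g) + ((E2 - P') g))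
      = (((1 : Module.End ℝ (X → ℝ)) - E2) g) + ((E2 - P') g) := by
    have : (((1 : Module.End ℝ (X → ℝ)) - E2) g) + ((E2 - P') g) = g - P' g := by
      simp only [LinearMap.sub_apply, Module.End.one_apply]; abel
    rw [this, map_sub, hE0g, n0P']
  have y1 := z _ w1
  have y2 := z _ w2
  have y1' := ip_comm ((((1 : Module.End ℝ (X → ℝ)) - E1) g) + ((E1 - P) g)) (f - g)
  rw [d1, d2]
  simp only [ip_add_left, ip_add_right] at y1 y2 y1' ⊢
  linarith

end L1abs

end P335G
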