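import Vale.Agent.Lib.P335_helper3.Block
import Vale.Agent.Lib.P335_helper16.RDavgP

/-! P335 graph level, module RDavg: `E_1 E_0` on switchable blocks -/

namespace P335G

open Finset P335h14

section RDavg
variable {V : Type*} [Fintype V] [DecidableEq V]

theorem RD.equiv (u v k l : V) : Equivalence (RD u v k l) := RD_equiv_h16 u v k l

/-- on diagonal blocks `E_1 E_0` is the average over the switchable part of the collision class -/
theorem avg_avg_eq_RD {u v k l : V} (h : Dist4 u v k l) (f : St V → ℝ) {x : St V}
    (hD : Dg u v k l x) :
    avg (GRel (touch u v \ block u v k l)) (avg (GRel (block u v k l)) f) x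
      = avg (RD u v k l) f x := avg_avg_eq_RD' h f hD

end RDavg

end P335G
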