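import Vale.Agent.Lib.P335_helper3.Block
import Vale.Agent.Lib.P335_helper2.OffS2

/-! P335 graph level, module S2: the sector in which the block holds exactly two occupied slots -/

set_option linter.unusedSectionVars false

namespace P335G

open Finset P335h14

section S2
variable {V : Type*} [Fintype V] [DecidableEq V]

/-- the block contains exactly two occupied slots -/
def S2 (u v k l : V) (x : St V) : Prop := (x ∩ block u v k l).card = 2

instance (u v k l : V) : DecidablePred (S2 u v k l) := fun x => by unfold S2; infer_instance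

theorem card_inter_block {u v k l : V} (h : Dist4 u v k l) (x : St V) :
    (x ∩ block u v k l).card = io x s(u, k) + io x s(u, l) + io x s(v, k) + io x s(v, l) := by
  rw [P335h2.card_block (P335h2.D4.of_dist4 h)]
  rfl

theorem S2_inv {u v k l : V} (h : Dist4 u v k l) {x y : St V} (hr : GRel (touch u v) x y) :
    S2 u v k l x ↔ S2 u v k l y := by
  unfold S2
  rw [P335h2.card_block_inv h hr]

theorem S2_inv' {u v k l : V} (h : Dist4 u v k l) {x y : St V} (hr : GRel (touch k l) x y) :
    S2 u v k l x ↔ S2 u v k l y := by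
  unfold S2
  rw [P335h2.card_block_inv' h hr]

theorem S2_of_Dg {u v k l : V} {x : St V} (h : Dg u v k l x) : S2 u v k l x := by
  unfold S2
  rcases h with h | h
  · obtain ⟨hd, h1, h2, h3, h4⟩ := h
    rw [card_inter_block hd]
    simp [io, h1, h2, h3, h4]
  · obtain ⟨hd, h1, h2, h3, h4⟩ := h
    have hd' : Dist4 u v k l :=
      ⟨hd.1, hd.2.2.1, hd.2.1, hd.2.2.2.2.1, hd.2.2.2.1, hd.2.2.2.2.2.symm⟩
    rw [card_inter_block hd']
    simp [io, h1, h2, h3, h4]

/-- shrinking the free slot set when the two states agree on the removed slots -/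
theorem s2_grel_sdiff_of_agree {A B : Finset (Sym2 V)} {x y : St V} (hr : GRel A x y)
    (hB : ∀ e ∈ B, (e ∈ x ↔ e ∈ y)) : GRel (A \ B) x y := by
  refine ⟨?_, hr.2⟩
  ext e
  have h1 : e ∈ x \ A ↔ e ∈ y \ A := by rw [hr.1]
  simp only [mem_sdiff, not_and, not_not] at h1 ⊢
  by_cases hA : e ∈ A
  · by_cases hb : e ∈ B
    · have := hB e hb
      tauto
    · tauto
  · tauto

theorem s2_io_le_one (x : St V) (e : Sym2 V) : io x e ≤ 1 := by
  unfold io; split_ifs <;> omega

theorem s2_mem_iff_of_io_eq {x y : St V} {e : Sym2 V} (h : io x e = io y e) : e ∈ x ↔ e ∈ y := by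
  unfold io at h
  split_ifs at h <;> simp_all

/-- in the sector, off the diagonal blocks, one of the two collisions cannot change the block -/
theorem frozen_of_S2_not_Dg {u v k l : V} (h : Dist4 u v k l) {x : St V} (h2 : S2 u v k l x)
    (hD : ¬ Dg u v k l x) :
    (∀ y, GRel (touch u v) x y → GRel (touch u v \ block u v k l) x y) ∨
    (∀ y, GRel (touch k l) x y → GRel (touch k l \ block u v k l) x y) := by
  unfold S2 at h2
  rw [card_inter_block h] at h2
  obtain ⟨huv, huk, hul, hvk, hvl, hkl⟩ := h
  have hd : Dist4 u v k l := ⟨huv, huk, hul, hvk, hvl, hkl⟩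
  have hd' : Dist4 u v l k := ⟨huv, hul, huk, hvl, hvk, hkl.symm⟩
  have b1 := s2_io_le_one x s(u, k)
  have b2 := s2_io_le_one x s(u, l)
  have b3 := s2_io_le_one x s(v, k)
  have b4 := s2_io_le_one x s(v, l)
  -- either the columns are constant or the rows are constant
  have key : (io x s(u, k) = io x s(v, k) ∧ io x s(u, l) = io x s(v, l)) ∨
      (io x s(u, k) = io x s(u, l) ∧ io x s(v, k) = io x s(v, l)) := by
    by_contra hcon
    apply hD
    unfold Dg SwOK
    have m1 : s(u, k) ∈ x ↔ io x s(u, k) = 1 := by unfold io; split_ifs <;> simp_all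
    have m2 : s(u, l) ∈ x ↔ io x s(u, l) = 1 := by unfold io; split_ifs <;> simp_all
    have m3 : s(v, k) ∈ x ↔ io x s(v, k) = 1 := by unfold io; split_ifs <;> simp_all
    have m4 : s(v, l) ∈ x ↔ io x s(v, l) = 1 := by unfold io; split_ifs <;> simp_all
    rw [m1, m2, m3, m4]
    by_cases c : io x s(u, k) = 1
    · left
      refine ⟨hd, ?_⟩
      omega
    · right
      refine ⟨hd', ?_⟩
      omega
  rcases key with ⟨c1, c2⟩ | ⟨c1, c2⟩
  · left
    intro y hr
    apply s2_grel_sdiff_of_agree hr
    have e1 := col_inv hr (k := k) huk.symm hvk.symm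
    have e2 := col_inv hr (k := l) hul.symm hvl.symm
    have d1 := s2_io_le_one y s(u, k)
    have d2 := s2_io_le_one y s(u, l)
    have d3 := s2_io_le_one y s(v, k)
    have d4 := s2_io_le_one y s(v, l)
    intro e he
    simp only [block, mem_insert, mem_singleton] at he
    rcases he with rfl | rfl | rfl | rfl <;> apply s2_mem_iff_of_io_eq <;> omega
  · right
    intro y hr
    apply s2_grel_sdiff_of_agree hr
    have e1 := col_inv hr (k := u) huk hul
    have e2 := col_inv hr (k := v) hvk hvl
    rw [Sym2.eq_swap (a := k) (b := u), Sym2.eq_swap (a := l) (b := u)] at e1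
    rw [Sym2.eq_swap (a := k) (b := v), Sym2.eq_swap (a := l) (b := v)] at e2
    have d1 := s2_io_le_one y s(u, k)
    have d2 := s2_io_le_one y s(u, l)
    have d3 := s2_io_le_one y s(v, k)
    have d4 := s2_io_le_one y s(v, l)
    intro e he
    simp only [block, mem_insert, mem_singleton] at he
    rcases he with rfl | rfl | rfl | rfl <;> apply s2_mem_iff_of_io_eq <;> omega

end S2

end P335G
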