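import Vale.Agent.Lib.P335_helper3.CommOff
import Vale.Agent.Lib.P335_helper3.RDavg
import Vale.Agent.Lib.P335_helper3.L1abs

/-! P335 graph level, module Sector: Steps 1-3 of PROOF_D for one pair of disjoint pairs -/

namespace P335G

open Finset P335h14

set_option linter.unusedSectionVars false

section Abs
variable {X : Type*} [Fintype X] [DecidableEq X]

theorem restr_mono {S : X → Prop} {r s : X → X → Prop} (h : ∀ x y, r x y → s x y) (x y : X)
    (hxy : restr S r x y) : restr S s x y := by
  rcases hxy with ⟨h1, h2⟩ | h1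
  · exact Or.inl ⟨h1, h x y h2⟩
  · exact Or.inr h1

/-- splitting an inner product along an invariant set -/
theorem ip_split_restr (S : X → Prop) [DecidablePred S] {r s : X → X → Prop} [DecidableRel r]
    [DecidableRel s] (hr : Equivalence r) (hs : Equivalence s) (f : X → ℝ) :
    ip (f - avg r f) (f - avg s f)
      = ip (f - avg (restr S r) f) (f - avg (restr S s) f)
        + ip (f - avg (restr (fun x => ¬ S x) r) f) (f - avg (restr (fun x => ¬ S x) s) f) := by
  unfold ip
  rw [← Finset.sum_add_distrib]
  apply Finset.sum_congr rfl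
  intro x _
  simp only [Pi.sub_apply]
  rw [avg_restr hr, avg_restr hs, avg_restr hr, avg_restr hs]
  by_cases hx : S x
  · simp [hx]
  · simp [hx]

theorem avg_eq_of_cls {r s : X → X → Prop} [DecidableRel r] [DecidableRel s] (x : X)
    (h : ∀ y, r x y ↔ s x y) (f : X → ℝ) : avg r f x = avg s f x := by
  unfold avg
  have : univ.filter (fun y => r x y) = univ.filter (fun y => s x y) := by
    ext y; simp only [mem_filter, mem_univ, true_and]; exact h y
  rw [this]

end Abs

section Sector
variable {V : Type*} [Fintype V] [DecidableEq V]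

theorem tw_of_not_Dg {u v k l : V} {x : St V} (h : ¬ Dg u v k l x) : tw u v k l x = x := by
  unfold Dg at h
  rw [not_or] at h
  unfold tw
  rw [if_neg h.1, if_neg h.2]

theorem disj_sdiff_touch {u v k l : V} (h : Dist4 u v k l) :
    Disjoint (touch u v \ block u v k l) (touch k l) := by
  rw [Finset.disjoint_left]
  intro e he he'
  rw [mem_sdiff] at he
  apply he.2
  rw [← touch_inter_touch h, mem_inter]
  exact ⟨he.1, he'⟩

theorem disj_sdiff_touch' {u v k l : V} (h : Dist4 u v k l) :
    Disjoint (touch k l \ block u v k l) (touch u v) := by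
  rw [Finset.disjoint_left]
  intro e he he'
  rw [mem_sdiff] at he
  apply he.2
  rw [← touch_inter_touch h, mem_inter]
  exact ⟨he', he.1⟩

theorem block_subset_touch' {u v k l : V} (h : Dist4 u v k l) : block u v k l ⊆ touch k l := by
  rw [← touch_inter_touch h]; exact Finset.inter_subset_right

theorem avg_restr_block {u v k l : V} (h : Dist4 u v k l) (f : St V → ℝ) :
    avg (restr (S2 u v k l) (GRel (block u v k l))) f = avg (GRel (block u v k l)) f := by
  funext x
  rw [avg_restr (GRel.equiv _)]
  by_cases hx : S2 u v k l x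
  · rw [if_pos hx]
  · rw [if_neg hx, avg_block h]
    have hD : ¬ Dg u v k l x := fun hD => hx (S2_of_Dg hD)
    rw [tw_of_not_Dg hD]; ring

theorem L1 {u v k l : V} (h : Dist4 u v k l) (f : St V → ℝ) :
    qq u v k l f - (1 / 2) * (mm u v k l f + mm k l u v f)
      ≤ ip (f - avg (GRel (touch u v)) f) (f - avg (GRel (touch k l)) f) := by
  set B := block u v k l with hB
  set A := touch u v with hA
  set A' := touch k l with hA'
  have eB := GRel.equiv B
  have eA := GRel.equiv A
  have eA' := GRel.equiv A'
  have e1 := GRel.equiv (A \ B)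
  have e2 := GRel.equiv (A' \ B)
  have hBA : B ⊆ A := block_subset_touch h
  have hBA' : B ⊆ A' := block_subset_touch' h
  -- invariance of the sector
  have iA : ∀ x y, GRel A x y → (S2 u v k l x ↔ S2 u v k l y) := fun x y hr => S2_inv h hr
  have iA' : ∀ x y, GRel A' x y → (S2 u v k l x ↔ S2 u v k l y) := fun x y hr => S2_inv' h hr
  have iB : ∀ x y, GRel B x y → (S2 u v k l x ↔ S2 u v k l y) :=
    fun x y hr => iA x y (GRel.mono hBA hr)
  have i1 : ∀ x y, GRel (A \ B) x y → (S2 u v k l x ↔ S2 u v k l y) :=
    fun x y hr => iA x y (GRel.mono Finset.sdiff_subset hr)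
  have i2 : ∀ x y, GRel (A' \ B) x y → (S2 u v k l x ↔ S2 u v k l y) :=
    fun x y hr => iA' x y (GRel.mono Finset.sdiff_subset hr)
  have nA : ∀ x y, GRel A x y → (¬ S2 u v k l x ↔ ¬ S2 u v k l y) :=
    fun x y hr => not_congr (iA x y hr)
  have nA' : ∀ x y, GRel A' x y → (¬ S2 u v k l x ↔ ¬ S2 u v k l y) :=
    fun x y hr => not_congr (iA' x y hr)
  -- the restricted relations
  have qB := restr_equiv eB iB
  have qA := restr_equiv eA iA
  have qA' := restr_equiv eA' iA'
  have q1 := restr_equiv e1 i1
  have q2 := restr_equiv e2 i2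
  rw [ip_split_restr (S2 u v k l) eA eA' f]
  have hoff : 0 ≤ ip (f - avg (restr (fun x => ¬ S2 u v k l x) (GRel A)) f)
      (f - avg (restr (fun x => ¬ S2 u v k l x) (GRel A')) f) :=
    ip_compl_nonneg_of_comm (restr_equiv eA nA) (restr_equiv eA' nA') (comm_off_S2 h) f
  have key := L1abs (avgL (restr (S2 u v k l) (GRel B))) (avgL (restr (S2 u v k l) (GRel (A \ B))))
    (avgL (restr (S2 u v k l) (GRel (A' \ B)))) (avgL (restr (S2 u v k l) (GRel A)))
    (avgL (restr (S2 u v k l) (GRel A')))
    (fun f g => ip_avg_left qB f g) (fun f g => ip_avg_left q1 f g)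
    (fun f g => ip_avg_left q2 f g) (fun f g => ip_avg_left qA f g)
    (fun f g => ip_avg_left qA' f g)
    (fun f => avg_idem qB f) (fun f => avg_idem q1 f) (fun f => avg_idem q2 f)
    (fun f => avg_idem qA f) (fun f => avg_idem qA' f)
    (fun f => avg_restr_comm e1 e2 i1 i2 (avg_comm_of_disjoint
      (Finset.disjoint_of_subset_right Finset.sdiff_subset (disj_sdiff_touch h))) f)
    (fun f => avg_restr_comm e1 eA' i1 iA' (avg_comm_of_disjoint (disj_sdiff_touch h)) f)
    (fun f => avg_restr_comm e2 eA i2 iA (avg_comm_of_disjoint (disj_sdiff_touch' h)) f)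
    (fun f => (avg_avg_of_le qB qA (restr_mono (fun x y hr => GRel.mono hBA hr)) f).1)
    (fun f => (avg_avg_of_le qB qA (restr_mono (fun x y hr => GRel.mono hBA hr)) f).2)
    (fun f => (avg_avg_of_le q1 qA (restr_mono (fun x y hr => GRel.mono Finset.sdiff_subset hr)) f).1)
    (fun f => (avg_avg_of_le q1 qA (restr_mono (fun x y hr => GRel.mono Finset.sdiff_subset hr)) f).2)
    (fun f => (avg_avg_of_le qB qA' (restr_mono (fun x y hr => GRel.mono hBA' hr)) f).1)
    (fun f => (avg_avg_of_le qB qA' (restr_mono (fun x y hr => GRel.mono hBA' hr)) f).2)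
    (fun f => (avg_avg_of_le q2 qA' (restr_mono (fun x y hr => GRel.mono Finset.sdiff_subset hr)) f).1)
    (fun f => (avg_avg_of_le q2 qA' (restr_mono (fun x y hr => GRel.mono Finset.sdiff_subset hr)) f).2)
    (Dg u v k l)
    (by
      intro g _ x hx
      show (avg (restr (S2 u v k l) (GRel (A \ B))) g x - avg (restr (S2 u v k l) (GRel A)) g x)
        * (avg (restr (S2 u v k l) (GRel (A' \ B))) g x - avg (restr (S2 u v k l) (GRel A')) g x) = 0
      rw [avg_restr e1, avg_restr eA, avg_restr e2, avg_restr eA']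
      by_cases hS : S2 u v k l x
      · simp only [if_pos hS]
        rcases frozen_of_S2_not_Dg h hS hx with hf | hf
        · rw [avg_eq_of_cls (r := GRel (A \ B)) (s := GRel A) x
            (fun y => ⟨fun hr => GRel.mono Finset.sdiff_subset hr, hf y⟩) g, sub_self, zero_mul]
        · rw [avg_eq_of_cls (r := GRel (A' \ B)) (s := GRel A') x
            (fun y => ⟨fun hr => GRel.mono Finset.sdiff_subset hr, hf y⟩) g, sub_self, mul_zero]
      · simp only [if_neg hS]; simp)
    f
  simp only [avgL_apply] at key
  rw [avg_restr_block h] at key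
  have hm1 : (∑ x, if Dg u v k l x then
      (avg (restr (S2 u v k l) (GRel (A \ B))) (avg (GRel B) f) x
        - avg (restr (S2 u v k l) (GRel A)) f x) ^ 2 else 0) = mm u v k l f := by
    unfold mm
    apply Finset.sum_congr rfl
    intro x _
    by_cases hD : Dg u v k l x
    · rw [if_pos hD, if_pos hD, avg_restr e1, avg_restr eA, if_pos (S2_of_Dg hD),
        if_pos (S2_of_Dg hD), avg_avg_eq_RD h f hD]
    · rw [if_neg hD, if_neg hD]
  have hm2 : (∑ x, if Dg u v k l x then
      (avg (restr (S2 u v k l) (GRel (A' \ B))) (avg (GRel B) f) x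
        - avg (restr (S2 u v k l) (GRel A')) f x) ^ 2 else 0) = mm k l u v f := by
    unfold mm
    apply Finset.sum_congr rfl
    intro x _
    by_cases hD : Dg u v k l x
    · have hD' : Dg k l u v x := (Dg_swap u v k l x).2 hD
      have h3 := avg_avg_eq_RD h.swap f hD'
      rw [block_swap] at h3
      rw [if_pos hD, if_pos hD', avg_restr e2, avg_restr eA', if_pos (S2_of_Dg hD),
        if_pos (S2_of_Dg hD), h3]
    · have hD' : ¬ Dg k l u v x := fun h' => hD ((Dg_swap u v k l x).1 h')
      rw [if_neg hD, if_neg hD']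
  rw [hm1, hm2] at key
  have hq : qq u v k l f = ip (f - avg (GRel B) f) (f - avg (GRel B) f) := rfl
  rw [hq]
  linarith

end Sector

end P335G
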